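import Vale.Agent.P298.H412.Form

/-!
P298, row S1-GEO-R6-B (helper412): the integrals of continuous densities over the surfaces of a
family are finite and depend continuously on the parameters.
-/

namespace Vale.Agent.P298.H412

open Filter Topology Metric MeasureTheory Set Vale.Agent.P298 Vale.Agent.P298.H379
open scoped ENNReal NNReal

variable {d : ℕ} {D : Set ℂ}

theorem isAddHaar_prod : (volume : Measure (ℂ × ℂ)).IsAddHaarMeasure :=
  Measure.prod.instIsAddHaarMeasure (volume : Measure ℂ) (volume : Measure ℂ)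

theorem finite_bound {β : ℝ} (hβ : 4 < β) :
    ∫⁻ q : ℂ × ℂ, ENNReal.ofReal ((1 + ‖q‖) ^ (-β)) < ∞ := by
  have := isAddHaar_prod
  refine finite_integral_one_add_norm ?_
  have : Module.finrank ℝ (ℂ × ℂ) = 4 := by
    rw [Module.finrank_prod, Complex.finrank_real_complex]
  rw [this]
  exact_mod_cast hβ

namespace SFam

variable (F : SFam d D)

theorem aemeasurable_rs (k : Fin 3) (t : ℂ) {ψ : (Fin 3 → ℂ) → ℝ≥0∞} (hψ : Measurable ψ) :
    AEMeasurable (F.rs k t ψ) := by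
  have h1 := H373.measurable_tsum_Fib (Ω := univ) isOpen_univ (F.analyticOnNhd_f t)
    (H373.analyticOnNhd_proj (fi k)) (H373.analyticOnNhd_proj (se k)) F.s hψ
  refine ⟨_, h1, ?_⟩
  filter_upwards [F.ae_pd_two (t := t) k] with q hq
  rw [← F.rs_eq_tsum k t ψ q hq]
  have hset : H373.Fib (F.f t) (fun y => y (fi k)) (fun y => y (se k)) univ F.s q =
      {x | x ∈ (univ : Set (Fin 3 → ℂ)) ∧ F.f t x = F.s ∧ x (fi k) = q.1 ∧ x (se k) = q.2 ∧
        pd 2 (F.f t) x ≠ 0 ∧ pd k (F.f t) x ≠ 0} := by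
    ext x
    have h3 : jac3 (F.f t) (fun y => y (fi k)) (fun y => y (se k)) x ≠ 0 ↔
        pd k (F.f t) x ≠ 0 := by
      rw [← norm_ne_zero_iff, H373.norm_jac3_proj (fi_ne_se k) (fi_ne k) (se_ne k),
        norm_ne_zero_iff]
    simp only [H373.Fib, Set.mem_ofPred_eq, h3]
  rw [hset]
  rfl

/-- the density divided by the square of the gradient -/
noncomputable def dg (t : ℂ) (φ : (Fin 3 → ℂ) → ℝ≥0∞) (x : Fin 3 → ℂ) : ℝ≥0∞ :=
  φ x / ENNReal.ofReal (F.gr t x)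

theorem dg_le {κ : ℝ} {τ : ℂ} {C g : ℝ} (hκ : 0 < κ) {x : Fin 3 → ℂ}
    (h1 : κ * (1 + ‖x‖) ^ (2 * (d - 1)) ≤ F.gr τ x) {φ : (Fin 3 → ℂ) → ℝ≥0∞}
    (h2 : φ x ≤ ENNReal.ofReal (C * (1 + ‖x‖) ^ g)) :
    F.dg τ φ x ≤ ENNReal.ofReal (C / κ * (1 + ‖x‖) ^ (g - (2 * (d - 1) : ℕ))) := by
  unfold dg
  have hx : 0 < 1 + ‖x‖ := by positivity
  have h3 : 0 < κ * (1 + ‖x‖) ^ (2 * (d - 1)) := by positivity
  calc φ x / ENNReal.ofReal (F.gr τ x) ≤
      ENNReal.ofReal (C * (1 + ‖x‖) ^ g) / ENNReal.ofReal (κ * (1 + ‖x‖) ^ (2 * (d - 1))) :=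
        ENNReal.div_le_div h2 (ENNReal.ofReal_le_ofReal h1)
    _ = ENNReal.ofReal (C * (1 + ‖x‖) ^ g / (κ * (1 + ‖x‖) ^ (2 * (d - 1)))) := by
        rw [ENNReal.ofReal_div_of_pos h3]
    _ = _ := by
        congr 1
        rw [Real.rpow_sub hx, Real.rpow_natCast]
        field_simp

theorem rs_bound {κ : ℝ} {τ : ℂ} {C g : ℝ} (hC : 0 ≤ C) (hκ : 0 < κ)
    (hg : g < 2 * ((d : ℝ) - 3))
    (h1 : ∀ x : Fin 3 → ℂ, F.f τ x = F.s → κ * (1 + ‖x‖) ^ (2 * (d - 1)) ≤ F.gr τ x)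
    {φ : (Fin 3 → ℂ) → ℝ≥0∞} (h2 : ∀ x, φ x ≤ ENNReal.ofReal (C * (1 + ‖x‖) ^ g))
    (k : Fin 3) (q : ℂ × ℂ) :
    F.rs k τ (F.dg τ φ) q ≤
      d * (ENNReal.ofReal (C / κ) * ENNReal.ofReal ((1 + ‖q‖) ^ (-((2 * (d - 1) : ℕ) - g)))) := by
  refine F.rs_le k τ _ q fun z hz => ?_
  refine (F.dg_le hκ (h1 _ hz) (h2 _)).trans ?_
  rw [← ENNReal.ofReal_mul (by positivity)]
  apply ENNReal.ofReal_le_ofReal
  refine mul_le_mul_of_nonneg_left ?_ (by positivity)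
  rw [neg_sub]
  refine Real.rpow_le_rpow_of_nonpos (by positivity) ?_ ?_
  · have := norm_le_norm_mq k q z
    linarith
  · have h3 := F.hd
    have h4 : ((2 * (d - 1) : ℕ) : ℝ) = 2 * ((d : ℝ) - 1) := by
      push_cast [Nat.cast_sub (by omega : 1 ≤ d)]
      ring
    rw [h4]
    linarith

/-- **Continuity and finiteness** of the integrals over the surfaces of a family. -/
theorem continuousAt_nu {P : Type*} [TopologicalSpace P] [FirstCountableTopology P] {τ : P → ℂ}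
    {y₀ : P} (hτ : ContinuousAt τ y₀) (hy : τ y₀ ∈ D) {δ : P → (Fin 3 → ℂ) → ℝ≥0∞}
    (hm : ∀ᶠ y in 𝓝 y₀, Measurable (δ y))
    (hδ : ∀ x, ContinuousAt (fun p : P × (Fin 3 → ℂ) => δ p.1 p.2) (y₀, x))
    {C g : ℝ} (hC : 0 ≤ C) (hg : g < 2 * ((d : ℝ) - 3))
    (hb : ∀ᶠ y in 𝓝 y₀, ∀ x, δ y x ≤ ENNReal.ofReal (C * (1 + ‖x‖) ^ g)) :
    ContinuousAt (fun y => nu (F.f (τ y)) F.s (δ y)) y₀ ∧
      nu (F.f (τ y₀)) F.s (δ y₀) < ∞ := by
  -- a compact neighbourhood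
  obtain ⟨ρ, hρ, hball⟩ := Metric.nhds_basis_closedBall.mem_iff.1 (F.hD.mem_nhds hy)
  have hK : IsCompact (closedBall (τ y₀) ρ) := isCompact_closedBall _ _
  obtain ⟨κ, hκ, hlow⟩ := F.low hK hball
  have hτK : ∀ᶠ y in 𝓝 y₀, τ y ∈ closedBall (τ y₀) ρ := hτ (closedBall_mem_nhds _ hρ)
  have hgood := hτK.and (hm.and hb)
  have hgood0 := hgood.self_of_nhds
  set β : ℝ := ((2 * (d - 1) : ℕ) : ℝ) - g with hβ
  have hβ4 : 4 < β := by
    have h3 := F.hd
    have h4 : ((2 * (d - 1) : ℕ) : ℝ) = 2 * ((d : ℝ) - 1) := by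
      push_cast [Nat.cast_sub (by omega : 1 ≤ d)]
      ring
    rw [hβ, h4]
    linarith
  set bound : ℂ × ℂ → ℝ≥0∞ := fun q =>
    d * (ENNReal.ofReal (C / κ) * ENNReal.ofReal ((1 + ‖q‖) ^ (-β))) with hbound
  have hbfin : ∫⁻ q, bound q ≠ ∞ := by
    simp only [hbound]
    rw [lintegral_const_mul' _ _ (by finiteness), lintegral_const_mul' _ _ (by finiteness)]
    exact ENNReal.mul_ne_top (by finiteness) (ENNReal.mul_ne_top (by finiteness)
      (finite_bound hβ4).ne)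
  have hrsb : ∀ y, (τ y ∈ closedBall (τ y₀) ρ ∧ Measurable (δ y) ∧
      ∀ x, δ y x ≤ ENNReal.ofReal (C * (1 + ‖x‖) ^ g)) → ∀ k q,
      F.rs k (τ y) (F.dg (τ y) (δ y)) q ≤ bound q := fun y hy k q =>
    F.rs_bound hC hκ hg (hlow (τ y) hy.1) hy.2.2 k q
  have hmeas : ∀ y, Measurable (δ y) → Measurable (F.dg (τ y) (δ y)) := fun y hy =>
    hy.div (F.measurable_gr (τ y))
  have hnu : ∀ y, (τ y ∈ closedBall (τ y₀) ρ ∧ Measurable (δ y) ∧
      ∀ x, δ y x ≤ ENNReal.ofReal (C * (1 + ‖x‖) ^ g)) →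
      nu (F.f (τ y)) F.s (δ y) = ∑ k, ∫⁻ q, F.rs k (τ y) (F.dg (τ y) (δ y)) q := fun y hy =>
    F.nu_eq (hball hy.1) hy.2.1
  constructor
  · -- continuity
    have hcong : (fun y => ∑ k, ∫⁻ q, F.rs k (τ y) (F.dg (τ y) (δ y)) q) =ᶠ[𝓝 y₀]
        fun y => nu (F.f (τ y)) F.s (δ y) := by
      filter_upwards [hgood] with y hy
      exact (hnu y hy).symm
    refine ContinuousAt.congr ?_ hcong
    refine tendsto_finsetSum _ fun k _ => ?_
    refine tendsto_of_seq_tendsto fun u hu => ?_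
    obtain ⟨N, hN⟩ := eventually_atTop.1 (hu.eventually hgood)
    rw [← tendsto_add_atTop_iff_nat N]
    refine tendsto_lintegral_of_dominated_convergence' bound
      (fun n => F.aemeasurable_rs k _ (hmeas _ (hN (n + N) (by omega)).2.1))
      (fun n => Filter.Eventually.of_forall fun q => hrsb _ (hN (n + N) (by omega)) k q) hbfin ?_
    filter_upwards [F.ae_simple hy k] with q hq
    have hψ : ∀ x, F.f (τ y₀) x = F.s →
        ContinuousAt (fun p : P × (Fin 3 → ℂ) => F.dg (τ p.1) (δ p.1) p.2) (y₀, x) := by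
      intro x hx
      have h1 : ContinuousAt (fun p : P × (Fin 3 → ℂ) => (τ p.1, p.2)) (y₀, x) :=
        (ContinuousAt.comp (f := fun p : P × (Fin 3 → ℂ) => p.1) (x := (y₀, x)) hτ
          continuousAt_fst).prodMk continuousAt_snd
      have h2 : ContinuousAt (fun p : ℂ × (Fin 3 → ℂ) => F.gr p.1 p.2) (τ y₀, x) :=
        F.continuousOn_gr.continuousAt ((F.hD.prod isOpen_univ).mem_nhds ⟨hy, mem_univ _⟩)
      have h3 : ContinuousAt (fun p : P × (Fin 3 → ℂ) => F.gr (τ p.1) p.2) (y₀, x) :=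
        ContinuousAt.comp (f := fun p : P × (Fin 3 → ℂ) => (τ p.1, p.2)) (x := (y₀, x)) h2 h1
      have h4 : ContinuousAt (fun p : P × (Fin 3 → ℂ) => ENNReal.ofReal (F.gr (τ p.1) p.2))
          (y₀, x) := ENNReal.continuous_ofReal.continuousAt.comp h3
      have h5 : 0 < F.gr (τ y₀) x := F.gr_pos hy hx
      exact ENNReal.Tendsto.div (hδ x) (Or.inr (by simpa using h5)) h4 (Or.inl (by finiteness))
    have h6 := F.continuousAt_rs (ψ := fun y => F.dg (τ y) (δ y)) hτ hy hψ hq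
    have h7 : ContinuousAt (fun y : P => (y, q)) y₀ := continuousAt_id.prodMk continuousAt_const
    have h8 : ContinuousAt (fun y => F.rs k (τ y) (F.dg (τ y) (δ y)) q) y₀ :=
      ContinuousAt.comp (f := fun y : P => (y, q)) (x := y₀) h6 h7
    exact (h8.tendsto.comp hu).comp (tendsto_add_atTop_nat N)
  · rw [hnu y₀ hgood0]
    refine ENNReal.sum_lt_top.2 fun k _ => ?_
    exact lt_of_le_of_lt (lintegral_mono fun q => hrsb y₀ hgood0 k q) hbfin.lt_top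

end SFam

end Vale.Agent.P298.H412
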