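import Vale.Agent.P298.H412.Lim

/-!
P298, row S1-GEO-R6-B (helper412): the final form of the block S1,
`GeoOut → S1AllR` and `GeoOut → S1AllP2`.
-/

namespace Vale.Agent.P298.H412

open Filter Topology Metric MeasureTheory Set Vale.Agent.P298 Vale.Agent.P298.H379
open scoped ENNReal NNReal

variable {d : ℕ} {D : Set ℂ}

theorem frequently_of_ae {p : PC4 → Prop} (h : ∀ᵐ a : PC4, p a) : ∃ᶠ a in 𝓝 (0 : PC4), p a := by
  have := H217.Gen.isAddHaar_pi 4
  have h1 : Dense {a : PC4 | p a} := Measure.dense_of_ae h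
  exact mem_closure_iff_frequently.1 (h1 0)

/-- the generic estimates in `ENNReal` -/
theorem generic_enn (geo : GeoOut) (F : SFam d D) {m : ℕ} (hm : 2 ≤ m)
    {H : ℂ × (Fin 4 → ℂ) → ℂ} (hH : HomFam D (m * (d - 4)) H) {R : ℝ} (hR : 0 < R)
    (hRD : closedBall 0 R ⊆ D) :
    ∀ᵐ a : PC4,
      (∀ Λ : ℝ≥0∞, (∀ t : ℂ, R / 11 ≤ ‖t‖ → ‖t‖ ≤ R →
          F.N m (H217.Gen.Ha H (m * (d - 4)) a) t ≤ Λ) →
        ∀ t ∈ closedBall (0 : ℂ) R, F.N m (H217.Gen.Ha H (m * (d - 4)) a) t ≤ 2 * Λ) ∧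
      (ENNReal.ofReal (R ^ 2) * F.N m (H217.Gen.Ha H (m * (d - 4)) a) 0 ≤
        8000 * ∫⁻ z in ball (0 : ℂ) R, F.N m (H217.Gen.Ha H (m * (d - 4)) a) z) := by
  filter_upwards [generic_real geo F hm hH hR hRD] with a ha
  obtain ⟨h1, h2⟩ := ha
  have hfin : ∀ t ∈ closedBall (0 : ℂ) R, F.N m (H217.Gen.Ha H (m * (d - 4)) a) t ≠ ∞ :=
    fun t ht => (F.continuousAt_N (by omega : 1 ≤ m) hH (hRD ht) a).2.ne
  have h0R : (0 : ℂ) ∈ closedBall (0 : ℂ) R := mem_closedBall_self hR.le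
  constructor
  · intro Λ hΛ t ht
    by_cases hT : Λ = ∞
    · rw [hT, ENNReal.mul_top (by norm_num)]
      exact le_top
    · have h3 : ∀ t : ℂ, R / 11 ≤ ‖t‖ → ‖t‖ ≤ R →
          (F.N m (H217.Gen.Ha H (m * (d - 4)) a) t).toReal ≤ Λ.toReal := fun t ht1 ht2 =>
        ENNReal.toReal_mono hT (hΛ t ht1 ht2)
      have h4 := h1 Λ.toReal h3 t ht
      have h5 : (2 * Λ).toReal = 2 * Λ.toReal := by rw [ENNReal.toReal_mul]; norm_num
      rw [← h5] at h4
      exact (ENNReal.toReal_le_toReal (hfin t ht) (ENNReal.mul_ne_top (by norm_num) hT)).1 h4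
  · by_cases hT : ∫⁻ z in ball (0 : ℂ) R, F.N m (H217.Gen.Ha H (m * (d - 4)) a) z = ∞
    · rw [hT, ENNReal.mul_top (by norm_num)]
      exact le_top
    · have h3 := h2 0 (by simpa using (by positivity : (0 : ℝ) ≤ R / 2))
      have hc : ContinuousOn (fun z => F.N m (H217.Gen.Ha H (m * (d - 4)) a) z) (ball 0 R) := by
        intro t ht
        have h4 : Tendsto (fun t' => F.N m (H217.Gen.Ha H (m * (d - 4)) a) t') (𝓝 t)
            (𝓝 (F.N m (H217.Gen.Ha H (m * (d - 4)) a) t)) :=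
          tendsto_N F (by omega : 1 ≤ m) hH (hRD (ball_subset_closedBall ht)) a tendsto_id
            tendsto_const_nhds
        exact ContinuousAt.continuousWithinAt h4
      have hI : ∫ z in ball (0 : ℂ) R, (F.N m (H217.Gen.Ha H (m * (d - 4)) a) z).toReal =
          (∫⁻ z in ball (0 : ℂ) R, F.N m (H217.Gen.Ha H (m * (d - 4)) a) z).toReal := by
        refine integral_toReal (hc.aemeasurable measurableSet_ball) ?_
        filter_upwards [ae_restrict_mem measurableSet_ball] with z hz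
        exact (hfin z (ball_subset_closedBall hz)).lt_top
      rw [hI] at h3
      set I := ∫⁻ z in ball (0 : ℂ) R, F.N m (H217.Gen.Ha H (m * (d - 4)) a) z with hIdef
      set N0 := F.N m (H217.Gen.Ha H (m * (d - 4)) a) 0 with hN0
      have hN0fin : N0 ≠ ∞ := hfin 0 h0R
      have h4 : R ^ 2 * N0.toReal ≤ 8000 * I.toReal := by
        have h5 : R ^ 2 * N0.toReal ≤ R ^ 2 * (8000 * (I.toReal / (Real.pi * R ^ 2))) :=
          mul_le_mul_of_nonneg_left h3 (by positivity)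
        have h6 : R ^ 2 * (8000 * (I.toReal / (Real.pi * R ^ 2))) = 8000 * (I.toReal / Real.pi) := by
          have := Real.pi_pos
          field_simp
        have h7 : I.toReal / Real.pi ≤ I.toReal := by
          apply div_le_self ENNReal.toReal_nonneg
          linarith [Real.pi_gt_three]
        rw [h6] at h5
        linarith
      calc ENNReal.ofReal (R ^ 2) * N0 = ENNReal.ofReal (R ^ 2) * ENNReal.ofReal N0.toReal := by
            rw [ENNReal.ofReal_toReal hN0fin]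
        _ = ENNReal.ofReal (R ^ 2 * N0.toReal) := (ENNReal.ofReal_mul (by positivity)).symm
        _ ≤ ENNReal.ofReal (8000 * I.toReal) := ENNReal.ofReal_le_ofReal h4
        _ = 8000 * I := by
            rw [ENNReal.ofReal_mul (by norm_num), ENNReal.ofReal_toReal hT]
            norm_num

/-- **Limit of the three-circles estimate.** -/
theorem zero_R (geo : GeoOut) (F : SFam d D) {m : ℕ} (hm : 2 ≤ m)
    {H : ℂ × (Fin 4 → ℂ) → ℂ} (hH : HomFam D (m * (d - 4)) H) {R : ℝ} (hR : 0 < R)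
    (hRD : closedBall 0 R ⊆ D) {Λ : ℝ≥0∞}
    (hΛ : ∀ t : ℂ, R / 11 ≤ ‖t‖ → ‖t‖ ≤ R → F.N m H t ≤ Λ) {t : ℂ}
    (ht : t ∈ closedBall (0 : ℂ) R) : F.N m H t ≤ 2 * Λ := by
  by_cases hT : Λ = ∞
  · rw [hT, ENNReal.mul_top (by norm_num)]
    exact le_top
  have hm1 : 1 ≤ m := by omega
  have hz : H217.Gen.Ha H (m * (d - 4)) (0 : PC4) = H := Ha_zero H _
  set A : Set ℂ := closedBall 0 R ∩ {t | R / 11 ≤ ‖t‖} with hA
  have hAc : IsCompact A :=
    (isCompact_closedBall _ _).inter_right (isClosed_le continuous_const continuous_norm)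
  refine ENNReal.le_of_forall_pos_le_add fun ε hε _ => ?_
  have hε2 : (0 : ℝ≥0∞) < (ε / 2 : ℝ≥0) := by
    have : 0 < ε / 2 := by positivity
    exact_mod_cast this
  have hE : ∀ᶠ a in 𝓝 (0 : PC4), ∀ t' ∈ A,
      F.N m (H217.Gen.Ha H (m * (d - 4)) a) t' < Λ + (ε / 2 : ℝ≥0) := by
    refine IsCompact.eventually_forall_of_forall_eventually (x₀ := (0 : PC4)) hAc
      (P := fun a t' => F.N m (H217.Gen.Ha H (m * (d - 4)) a) t' < Λ + (ε / 2 : ℝ≥0)) ?_
    intro t' ht'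
    have h1 : Tendsto (fun z : PC4 × ℂ => F.N m (H217.Gen.Ha H (m * (d - 4)) z.1) z.2)
        (𝓝 (0, t')) (𝓝 (F.N m (H217.Gen.Ha H (m * (d - 4)) (0 : PC4)) t')) :=
      tendsto_N F hm1 hH (hRD ht'.1) 0 (continuous_snd.tendsto _) (continuous_fst.tendsto _)
    rw [hz] at h1
    refine h1.eventually_lt_const ?_
    have h2 : F.N m H t' ≤ Λ := hΛ t' ht'.2 (by simpa using ht'.1)
    exact lt_of_le_of_lt h2 (ENNReal.lt_add_right hT hε2.ne')
  have hfreq := (frequently_of_ae (generic_enn geo F hm hH hR hRD)).and_eventually hE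
  have h3 : ∃ᶠ a in 𝓝 (0 : PC4), F.N m (H217.Gen.Ha H (m * (d - 4)) a) t ≤
      2 * (Λ + (ε / 2 : ℝ≥0)) := by
    refine hfreq.mono fun a ha => ?_
    refine ha.1.1 _ (fun t' h1 h2 => (ha.2 t' ⟨by simpa using h2, h1⟩).le) t ht
  have h4 : Tendsto (fun a : PC4 => F.N m (H217.Gen.Ha H (m * (d - 4)) a) t) (𝓝 0)
      (𝓝 (F.N m (H217.Gen.Ha H (m * (d - 4)) (0 : PC4)) t)) :=
    tendsto_N F hm1 hH (hRD ht) 0 tendsto_const_nhds tendsto_id
  rw [hz] at h4
  have h5 : F.N m H t ≤ 2 * (Λ + (ε / 2 : ℝ≥0)) := by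
    by_contra hcon
    push Not at hcon
    exact h3 ((h4.eventually_const_lt hcon).mono fun a ha => not_le.2 ha)
  refine h5.trans (le_of_eq ?_)
  rw [mul_add]
  congr 1
  have : (2 : ℝ≥0) * (ε / 2) = ε := by field_simp
  exact_mod_cast congrArg (fun x : ℝ≥0 => (x : ℝ≥0∞)) this

/-- **Limit of the mean value estimate.** -/
theorem zero_P2 (geo : GeoOut) (F : SFam d D) {m : ℕ} (hm : 2 ≤ m)
    {H : ℂ × (Fin 4 → ℂ) → ℂ} (hH : HomFam D (m * (d - 4)) H) {R : ℝ} (hR : 0 < R)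
    (hRD : closedBall 0 R ⊆ D) :
    ENNReal.ofReal (R ^ 2) * F.N m H 0 ≤ 8000 * ∫⁻ z in ball (0 : ℂ) R, F.N m H z := by
  have hm1 : 1 ≤ m := by omega
  have hz : H217.Gen.Ha H (m * (d - 4)) (0 : PC4) = H := Ha_zero H _
  have h0R : (0 : ℂ) ∈ closedBall (0 : ℂ) R := mem_closedBall_self hR.le
  have key : ∀ ε : ℝ≥0, 0 < ε → ENNReal.ofReal (R ^ 2) * F.N m H 0 ≤
      8000 * ((∫⁻ z in ball (0 : ℂ) R, F.N m H z) + ε * volume (ball (0 : ℂ) R)) := by
    intro ε hε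
    have hε' : (0 : ℝ≥0∞) < ε := by exact_mod_cast hε
    have hE : ∀ᶠ a in 𝓝 (0 : PC4), ∀ t' ∈ closedBall (0 : ℂ) R,
        F.N m (H217.Gen.Ha H (m * (d - 4)) a) t' < F.N m H t' + ε := by
      refine IsCompact.eventually_forall_of_forall_eventually (x₀ := (0 : PC4))
        (isCompact_closedBall _ _)
        (P := fun a t' => F.N m (H217.Gen.Ha H (m * (d - 4)) a) t' < F.N m H t' + ε) ?_
      intro t' ht'
      have h1 : Tendsto (fun z : PC4 × ℂ => F.N m (H217.Gen.Ha H (m * (d - 4)) z.1) z.2)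
          (𝓝 (0, t')) (𝓝 (F.N m (H217.Gen.Ha H (m * (d - 4)) (0 : PC4)) t')) :=
        tendsto_N F hm1 hH (hRD ht') 0 (continuous_snd.tendsto _) (continuous_fst.tendsto _)
      have h2 : Tendsto (fun z : PC4 × ℂ => F.N m (H217.Gen.Ha H (m * (d - 4)) (0 : PC4)) z.2)
          (𝓝 (0, t')) (𝓝 (F.N m (H217.Gen.Ha H (m * (d - 4)) (0 : PC4)) t')) :=
        tendsto_N F hm1 hH (hRD ht') 0 (continuous_snd.tendsto _) tendsto_const_nhds
      have hfin : F.N m H t' ≠ ∞ := by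
        have := (F.continuousAt_N hm1 hH (hRD ht') 0).2.ne
        rwa [hz] at this
      rw [hz] at h1 h2
      exact h1.eventually_lt (h2.add_const (ε : ℝ≥0∞)) (ENNReal.lt_add_right hfin hε'.ne')
    have hfreq := (frequently_of_ae (generic_enn geo F hm hH hR hRD)).and_eventually hE
    have h3 : ∃ᶠ a in 𝓝 (0 : PC4),
        ENNReal.ofReal (R ^ 2) * F.N m (H217.Gen.Ha H (m * (d - 4)) a) 0 ≤
        8000 * ((∫⁻ z in ball (0 : ℂ) R, F.N m H z) + ε * volume (ball (0 : ℂ) R)) := by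
      refine hfreq.mono fun a ha => ?_
      refine ha.1.2.trans (mul_le_mul' le_rfl ?_)
      calc ∫⁻ z in ball (0 : ℂ) R, F.N m (H217.Gen.Ha H (m * (d - 4)) a) z
          ≤ ∫⁻ z in ball (0 : ℂ) R, (F.N m H z + ε) :=
            setLIntegral_mono' measurableSet_ball fun z hz' =>
              (ha.2 z (ball_subset_closedBall hz')).le
        _ = (∫⁻ z in ball (0 : ℂ) R, F.N m H z) + ε * volume (ball (0 : ℂ) R) := by
            rw [lintegral_add_right _ measurable_const, setLIntegral_const]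
    have h4 : Tendsto (fun a : PC4 => F.N m (H217.Gen.Ha H (m * (d - 4)) a) 0) (𝓝 0)
        (𝓝 (F.N m (H217.Gen.Ha H (m * (d - 4)) (0 : PC4)) 0)) :=
      tendsto_N F hm1 hH (hRD h0R) 0 tendsto_const_nhds tendsto_id
    rw [hz] at h4
    have h5 : Tendsto (fun a : PC4 => ENNReal.ofReal (R ^ 2) *
        F.N m (H217.Gen.Ha H (m * (d - 4)) a) 0) (𝓝 0)
        (𝓝 (ENNReal.ofReal (R ^ 2) * F.N m H 0)) :=
      ENNReal.Tendsto.const_mul h4 (Or.inr (by finiteness))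
    by_contra hcon
    push Not at hcon
    exact h3 ((h5.eventually_const_lt hcon).mono fun a ha => not_le.2 ha)
  have hV : volume (ball (0 : ℂ) R) ≠ ∞ := measure_ball_lt_top.ne
  refine ENNReal.le_of_forall_pos_le_add fun ε hε _ => ?_
  set V : ℝ≥0 := (volume (ball (0 : ℂ) R)).toNNReal with hVdef
  have hVc : volume (ball (0 : ℂ) R) = V := (ENNReal.coe_toNNReal hV).symm
  have h6 := key (ε / (8000 * V + 1)) (by positivity)
  refine h6.trans ?_
  rw [mul_add, hVc]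
  refine add_le_add le_rfl ?_
  have h7 : (8000 : ℝ≥0) * (ε / (8000 * V + 1) * V) ≤ ε := by
    have h8 : (8000 : ℝ≥0) * (ε / (8000 * V + 1) * V) = ε * (8000 * V / (8000 * V + 1)) := by
      field_simp
    rw [h8]
    have h9 : (8000 * V / (8000 * V + 1) : ℝ≥0) ≤ 1 :=
      div_le_one_of_le₀ (le_add_of_nonneg_right zero_le_one) (by positivity)
    calc ε * (8000 * V / (8000 * V + 1)) ≤ ε * 1 := by gcongr
      _ = ε := mul_one _
  exact_mod_cast h7

theorem S1AllR_of_geo_two (geo : GeoOut) {d : ℕ} {D : Set ℂ} (F : SFam d D) {m : ℕ} (hm : 2 ≤ m)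
    {H : ℂ × (Fin 4 → ℂ) → ℂ} (hH : HomFam D (m * (d - 4)) H) {t₀ : ℂ} {r : ℝ} (hr : 0 < r)
    (hD : closedBall t₀ r ⊆ D) {Λ : ℝ≥0∞}
    (hΛ : ∀ t : ℂ, r / 11 ≤ dist t t₀ → dist t t₀ ≤ r → F.N m H t ≤ Λ) :
    ∀ t ∈ closedBall t₀ r, F.N m H t ≤ 2 * Λ := by
  intro t ht
  have hsub : closedBall (0 : ℂ) r ⊆ (fun t => t₀ + t) ⁻¹' D := by
    intro u hu
    apply hD
    rw [mem_closedBall, dist_eq_norm]
    simpa using hu
  have h1 := zero_R geo (F.shift t₀) hm (hH.shift t₀) hr hsub (Λ := Λ) (fun u hu1 hu2 => ?_)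
    (t := t - t₀) (by rw [mem_closedBall_zero_iff, ← dist_eq_norm]; exact ht)
  · have h2 : (F.shift t₀).N m (fun p => H (t₀ + p.1, p.2)) (t - t₀) =
        F.N m H (t₀ + (t - t₀)) := rfl
    rw [h2, add_sub_cancel] at h1
    exact h1
  · refine hΛ (t₀ + u) ?_ ?_ <;> simpa [dist_eq_norm] using ‹_›

theorem S1AllP2_of_geo_two (geo : GeoOut) {d : ℕ} {D : Set ℂ} (F : SFam d D) {m : ℕ} (hm : 2 ≤ m)
    {H : ℂ × (Fin 4 → ℂ) → ℂ} (hH : HomFam D (m * (d - 4)) H) {t₀ : ℂ} {r : ℝ} (hr : 0 < r)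
    (hD : ball t₀ r ⊆ D) :
    ENNReal.ofReal (r ^ 2) * F.N m H t₀ ≤ 8000 * ∫⁻ t in ball t₀ r, F.N m H t := by
  have h1 : ∀ r' ∈ Ioo 0 r, ENNReal.ofReal (r' ^ 2) * F.N m H t₀ ≤
      8000 * ∫⁻ t in ball t₀ r, F.N m H t := by
    intro r' hr'
    have hsub : closedBall (0 : ℂ) r' ⊆ (fun t => t₀ + t) ⁻¹' D := by
      intro u hu
      apply hD
      rw [mem_ball, dist_eq_norm]
      have : ‖u‖ ≤ r' := by simpa using hu
      simpa using lt_of_le_of_lt this hr'.2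
    have h2 := zero_P2 geo (F.shift t₀) hm (hH.shift t₀) hr'.1 hsub
    have h3 : (F.shift t₀).N m (fun p => H (t₀ + p.1, p.2)) 0 = F.N m H (t₀ + 0) := rfl
    rw [h3, add_zero] at h2
    refine h2.trans (mul_le_mul' le_rfl ?_)
    have h4 : ∫⁻ z in ball (0 : ℂ) r', (F.shift t₀).N m (fun p => H (t₀ + p.1, p.2)) z =
        ∫⁻ z in ball (0 : ℂ) r', F.N m H (t₀ + z) := rfl
    rw [h4, (measurePreserving_add_left volume t₀).setLIntegral_comp_emb
      (measurableEmbedding_addLeft t₀) (F.N m H)]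
    refine lintegral_mono_set ?_
    rintro _ ⟨u, hu, rfl⟩
    rw [mem_ball, dist_eq_norm]
    have : ‖u‖ < r' := by simpa using hu
    simpa using this.trans hr'.2
  have ht₀ : t₀ ∈ D := hD (mem_ball_self hr)
  have hfin : F.N m H t₀ ≠ ∞ := by
    have := (F.continuousAt_N (by omega : 1 ≤ m) hH ht₀ 0).2.ne
    rwa [Ha_zero] at this
  have h5 : Tendsto (fun r' : ℝ => ENNReal.ofReal (r' ^ 2) * F.N m H t₀) (𝓝[<] r)
      (𝓝 (ENNReal.ofReal (r ^ 2) * F.N m H t₀)) := by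
    refine Tendsto.mono_left ?_ nhdsWithin_le_nhds
    refine ENNReal.Tendsto.mul_const ?_ (Or.inr hfin)
    exact (ENNReal.continuous_ofReal.comp (continuous_pow 2)).tendsto r
  refine le_of_tendsto h5 ?_
  filter_upwards [Ioo_mem_nhdsLT hr] with r' hr'
  exact h1 r' hr'

/-- **The final form of `(R)`.** -/
theorem s1AllR (geo : GeoOut) : S1AllR := by
  intro d D F m hm H hH t₀ r hr hD Λ hΛ
  rcases Nat.lt_or_ge m 2 with h | h
  · obtain rfl : m = 1 := by omega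
    have hH2 : HomFam D (2 * (d - 4)) (fun p => H p ^ 2) := by
      have := hH.sq
      rwa [one_mul] at this
    have h1 := S1AllR_of_geo_two geo F le_rfl hH2 hr hD (Λ := Λ)
      (fun t h1 h2 => by rw [F.N_sq]; exact hΛ t h1 h2)
    intro t ht
    have h2 := h1 t ht
    rwa [F.N_sq] at h2
  · exact S1AllR_of_geo_two geo F h hH hr hD hΛ

/-- **The final form of `(P2)`.** -/
theorem s1AllP2 (geo : GeoOut) : S1AllP2 := by
  intro d D F m hm H hH t₀ r hr hD
  rcases Nat.lt_or_ge m 2 with h | h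
  · obtain rfl : m = 1 := by omega
    have hH2 : HomFam D (2 * (d - 4)) (fun p => H p ^ 2) := by
      have := hH.sq
      rwa [one_mul] at this
    have h1 := S1AllP2_of_geo_two geo F le_rfl hH2 hr hD
    simp only [F.N_sq] at h1
    exact h1
  · exact S1AllP2_of_geo_two geo F h hH hr hD

end Vale.Agent.P298.H412
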