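import Vale.Agent.P298.H412.Poly

/-!
P298, row S1-GEO-R6-B (helper412): lower bound for the gradient on the surfaces of a family.
-/

namespace Vale.Agent.P298.H412

open Filter Topology Metric MeasureTheory Set Vale.Agent.P298 Vale.Agent.P298.H379
open scoped ENNReal NNReal

variable {d : ℕ} {D : Set ℂ}

namespace SFam

variable (F : SFam d D)

/-- square of the norm of the gradient -/
noncomputable def gr (t : ℂ) (x : Fin 3 → ℂ) : ℝ := ∑ i, ‖pd i (F.f t) x‖ ^ 2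

theorem gr_nonneg (t : ℂ) (x : Fin 3 → ℂ) : 0 ≤ F.gr t x :=
  Finset.sum_nonneg fun _ _ => sq_nonneg _

theorem gr_pos {t : ℂ} (ht : t ∈ D) {x : Fin 3 → ℂ} (hx : F.f t x = F.s) : 0 < F.gr t x := by
  obtain ⟨i, hi⟩ := F.smooth t ht x hx
  have h1 : 0 < ‖pd i (F.f t) x‖ ^ 2 := by
    have : pd i (F.f t) x ≠ 0 := hi
    positivity
  exact lt_of_lt_of_le h1 (Finset.single_le_sum (f := fun i => ‖pd i (F.f t) x‖ ^ 2)
    (fun _ _ => sq_nonneg _) (Finset.mem_univ i))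

theorem continuousOn_gr :
    ContinuousOn (fun p : ℂ × (Fin 3 → ℂ) => F.gr p.1 p.2) (D ×ˢ univ) := by
  unfold SFam.gr
  exact continuousOn_finsetSum _ fun i _ => ((F.continuousOn_pd i).norm.pow 2)

/-- bound of a derivative monomial -/
theorem monomial_bound (α : Mon d (d - 1)) (i : Fin 3) {x : Fin 3 → ℂ} (hx : 1 ≤ ‖x‖) :
    ‖(∏ j ∈ Finset.univ.erase i, x j ^ (α.1 j : ℕ)) *
      ((α.1 i : ℕ) * x i ^ ((α.1 i : ℕ) - 1))‖ ≤ d * ‖x‖ ^ (d - 2) := by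
  rcases Nat.eq_zero_or_pos (α.1 i : ℕ) with h0 | h0
  · rw [h0]
    simp only [Nat.cast_zero, zero_mul, mul_zero, norm_zero]
    positivity
  · have hsum := α.2.1
    have h1 : ∀ j, ‖x j‖ ≤ ‖x‖ := fun j => norm_le_pi_norm x j
    have h2 : ‖∏ j ∈ Finset.univ.erase i, x j ^ (α.1 j : ℕ)‖ ≤
        ‖x‖ ^ (∑ j ∈ Finset.univ.erase i, (α.1 j : ℕ)) := by
      rw [norm_prod, ← Finset.prod_pow_eq_pow_sum]
      refine Finset.prod_le_prod (fun _ _ => norm_nonneg _) fun j _ => ?_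
      rw [norm_pow]
      exact pow_le_pow_left₀ (norm_nonneg _) (h1 j) _
    have h3 : ‖((α.1 i : ℕ) : ℂ) * x i ^ ((α.1 i : ℕ) - 1)‖ ≤ d * ‖x‖ ^ ((α.1 i : ℕ) - 1) := by
      rw [norm_mul, norm_pow, Complex.norm_natCast]
      refine mul_le_mul ?_ (pow_le_pow_left₀ (norm_nonneg _) (h1 i) _) (by positivity)
        (by positivity)
      have := (α.1 i).2
      exact_mod_cast (by omega : (α.1 i : ℕ) ≤ d)
    rw [norm_mul]
    calc _ ≤ ‖x‖ ^ (∑ j ∈ Finset.univ.erase i, (α.1 j : ℕ)) * (d * ‖x‖ ^ ((α.1 i : ℕ) - 1)) :=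
          mul_le_mul h2 h3 (norm_nonneg _) (by positivity)
      _ = d * ‖x‖ ^ (∑ j ∈ Finset.univ.erase i, (α.1 j : ℕ) + ((α.1 i : ℕ) - 1)) := by
          rw [pow_add]; ring
      _ ≤ d * ‖x‖ ^ (d - 2) := by
          refine mul_le_mul_of_nonneg_left (pow_le_pow_right₀ hx ?_) (by positivity)
          have h4 : (α.1 i : ℕ) + ∑ j ∈ Finset.univ.erase i, (α.1 j : ℕ) =
              (α.1 0 : ℕ) + α.1 1 + α.1 2 := by
            rw [Finset.add_sum_erase Finset.univ (fun j => (α.1 j : ℕ)) (Finset.mem_univ i),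
              Fin.sum_univ_three]
          omega

theorem exists_a_bound {K : Set ℂ} (hK : IsCompact K) (hKD : K ⊆ D) :
    ∃ A : ℝ, 0 ≤ A ∧ ∀ t ∈ K, ∀ α, ‖F.a t α‖ ≤ A := by
  obtain ⟨A, hA⟩ := hK.exists_bound_of_continuousOn (F.holo.continuousOn.mono hKD)
  refine ⟨max A 0, le_max_right _ _, fun t ht α => ?_⟩
  exact (norm_le_pi_norm (F.a t) α).trans ((hA t ht).trans (le_max_left _ _))

/-- at infinity -/
theorem low_infinity {K : Set ℂ} (hK : IsCompact K) (hKD : K ⊆ D) :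
    ∃ R₀ : ℝ, 1 ≤ R₀ ∧ ∃ κ : ℝ, 0 < κ ∧ ∀ t ∈ K, ∀ x : Fin 3 → ℂ, R₀ ≤ ‖x‖ →
      κ * (1 + ‖x‖) ^ (2 * (d - 1)) ≤ F.gr t x := by
  obtain ⟨A, hA0, hA⟩ := F.exists_a_bound hK hKD
  obtain ⟨i₀, hi₀⟩ : ∃ i₀, ∀ i, ‖F.c i₀‖ ≤ ‖F.c i‖ := by
    obtain ⟨i₀, -, h⟩ := Finset.exists_min_image Finset.univ (fun i => ‖F.c i‖)
      Finset.univ_nonempty
    exact ⟨i₀, fun i => h i (Finset.mem_univ i)⟩
  set m := ‖F.c i₀‖ with hm
  have hm0 : 0 < m := norm_pos_iff.2 (F.hc i₀)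
  have hd5 := F.hd
  have hd0 : (0 : ℝ) < d := by exact_mod_cast F.d_pos
  set C : ℝ := Fintype.card (Mon d (d - 1)) * (A * d) with hC
  have hC0 : 0 ≤ C := by positivity
  refine ⟨max 1 (2 * C / (m * d)), le_max_left _ _, (m * d / 2) ^ 2 / 2 ^ (2 * (d - 1)),
    by positivity, ?_⟩
  intro t ht x hx
  have hx1 : 1 ≤ ‖x‖ := (le_max_left _ _).trans hx
  have hx2 : 2 * C / (m * d) ≤ ‖x‖ := (le_max_right _ _).trans hx
  have hx2' : 2 * C ≤ ‖x‖ * (m * d) := by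
    rwa [div_le_iff₀ (by positivity)] at hx2
  obtain ⟨i, hi⟩ : ∃ i, ‖x i‖ = ‖x‖ := by
    obtain ⟨i, hi⟩ := Finite.exists_max (fun i => ‖x i‖)
    refine ⟨i, le_antisymm (norm_le_pi_norm x i) ?_⟩
    exact (pi_norm_le_iff_of_nonneg (norm_nonneg _)).2 hi
  have h1 : m * d / 2 * ‖x‖ ^ (d - 1) ≤ ‖pd i (F.f t) x‖ := by
    rw [F.pd_f]
    have h2 : ‖∑ α : Mon d (d - 1), (F.a t α * ∏ j ∈ Finset.univ.erase i, x j ^ (α.1 j : ℕ)) *
        ((α.1 i : ℕ) * x i ^ ((α.1 i : ℕ) - 1))‖ ≤ C * ‖x‖ ^ (d - 2) := by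
      refine (norm_sum_le _ _).trans ?_
      calc _ ≤ ∑ α : Mon d (d - 1), A * (d * ‖x‖ ^ (d - 2)) := by
            refine Finset.sum_le_sum fun α _ => ?_
            rw [mul_assoc, norm_mul]
            exact mul_le_mul (hA t ht α) (monomial_bound α i hx1) (norm_nonneg _) hA0
        _ = C * ‖x‖ ^ (d - 2) := by
            rw [Finset.sum_const, Finset.card_univ, nsmul_eq_mul, hC]; ring
    have h3 : m * d * ‖x‖ ^ (d - 1) ≤ ‖F.c i * (d * x i ^ (d - 1))‖ := by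
      rw [norm_mul, norm_mul, norm_pow, Complex.norm_natCast, hi]
      rw [mul_assoc]
      exact mul_le_mul_of_nonneg_right (hi₀ i) (by positivity)
    have h4 : C * ‖x‖ ^ (d - 2) ≤ m * d / 2 * ‖x‖ ^ (d - 1) := by
      have h5 : ‖x‖ ^ (d - 1) = ‖x‖ ^ (d - 2) * ‖x‖ := by
        rw [← pow_succ]; congr 1; omega
      rw [h5]
      have h6 : 0 ≤ ‖x‖ ^ (d - 2) := by positivity
      nlinarith [mul_le_mul_of_nonneg_left hx2' h6]
    have h7 := norm_sub_norm_le (F.c i * (d * x i ^ (d - 1)))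
      (-∑ α : Mon d (d - 1), (F.a t α * ∏ j ∈ Finset.univ.erase i, x j ^ (α.1 j : ℕ)) *
        ((α.1 i : ℕ) * x i ^ ((α.1 i : ℕ) - 1)))
    rw [norm_neg, sub_neg_eq_add] at h7
    linarith
  have h8 : (m * d / 2 * ‖x‖ ^ (d - 1)) ^ 2 ≤ F.gr t x := by
    refine le_trans ?_ (Finset.single_le_sum (f := fun i => ‖pd i (F.f t) x‖ ^ 2)
      (fun _ _ => sq_nonneg _) (Finset.mem_univ i))
    exact pow_le_pow_left₀ (by positivity) h1 2
  refine le_trans ?_ h8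
  have h9 : (1 + ‖x‖) ^ (2 * (d - 1)) ≤ 2 ^ (2 * (d - 1)) * (‖x‖ ^ (d - 1)) ^ 2 := by
    rw [← pow_mul, mul_comm (d - 1) 2, ← mul_pow]
    exact pow_le_pow_left₀ (by positivity) (by linarith) _
  calc _ ≤ (m * d / 2) ^ 2 / 2 ^ (2 * (d - 1)) * (2 ^ (2 * (d - 1)) * (‖x‖ ^ (d - 1)) ^ 2) :=
        mul_le_mul_of_nonneg_left h9 (by positivity)
    _ = (m * d / 2 * ‖x‖ ^ (d - 1)) ^ 2 := by
        field_simp

theorem low {K : Set ℂ} (hK : IsCompact K) (hKD : K ⊆ D) :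
    ∃ κ : ℝ, 0 < κ ∧ ∀ t ∈ K, ∀ x : Fin 3 → ℂ, F.f t x = F.s →
      κ * (1 + ‖x‖) ^ (2 * (d - 1)) ≤ F.gr t x := by
  obtain ⟨R₀, hR₀, κ, hκ, h⟩ := F.low_infinity hK hKD
  set Z : Set (ℂ × (Fin 3 → ℂ)) := (K ×ˢ closedBall 0 R₀) ∩ {p | F.f p.1 p.2 = F.s} with hZ
  have hKB : IsCompact (K ×ˢ closedBall (0 : Fin 3 → ℂ) R₀) := hK.prod (isCompact_closedBall _ _)
  have hsub : K ×ˢ closedBall (0 : Fin 3 → ℂ) R₀ ⊆ D ×ˢ univ := fun p hp => ⟨hKD hp.1, mem_univ _⟩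
  have hZc : IsCompact Z := by
    have h1 : IsClosed Z :=
      (F.continuousOn_f.mono hsub).preimage_isClosed_of_isClosed hKB.isClosed isClosed_singleton
    exact hKB.of_isClosed_subset h1 inter_subset_left
  rcases Z.eq_empty_or_nonempty with hne | hne
  · refine ⟨κ, hκ, fun t ht x hx => ?_⟩
    rcases le_or_gt R₀ ‖x‖ with h1 | h1
    · exact h t ht x h1
    · exfalso
      have : (t, x) ∈ Z := ⟨⟨ht, by simpa using h1.le⟩, hx⟩
      rw [hne] at this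
      exact this
  · obtain ⟨p, hp, hmin⟩ := hZc.exists_isMinOn hne
      (F.continuousOn_gr.mono (inter_subset_left.trans hsub))
    have hpos : 0 < F.gr p.1 p.2 := F.gr_pos (hKD hp.1.1) hp.2
    refine ⟨min κ (F.gr p.1 p.2 / (1 + R₀) ^ (2 * (d - 1))), by positivity, fun t ht x hx => ?_⟩
    rcases le_or_gt R₀ ‖x‖ with h1 | h1
    · exact le_trans (mul_le_mul_of_nonneg_right (min_le_left _ _) (by positivity)) (h t ht x h1)
    · have hx' : (t, x) ∈ Z := ⟨⟨ht, by simpa using h1.le⟩, hx⟩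
      have h2 : F.gr p.1 p.2 ≤ F.gr t x := (isMinOn_iff.1 hmin) (t, x) hx'
      refine le_trans ?_ h2
      calc _ ≤ F.gr p.1 p.2 / (1 + R₀) ^ (2 * (d - 1)) * (1 + R₀) ^ (2 * (d - 1)) := by
            refine mul_le_mul (min_le_right _ _) ?_ (by positivity) (by positivity)
            exact pow_le_pow_left₀ (by positivity) (by linarith) _
        _ = F.gr p.1 p.2 := by field_simp

end SFam

end Vale.Agent.P298.H412
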