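import Vale.Agent.P298.H412.Null
import Vale.Agent.P298.H412.Low

/-!
P298, row S1-GEO-R6-B (helper412): the root-sum integral as a sum of three integrals with bounded
densities, `∫_S φ |ω|² = ∑_k ∫_q ∑_{roots in the direction k} φ / |∇f|²`.
-/

namespace Vale.Agent.P298.H412

open Filter Topology Metric MeasureTheory Set Vale.Agent.P298 Vale.Agent.P298.H379
open scoped ENNReal NNReal

variable {d : ℕ} {D : Set ℂ}

namespace SFam

variable (F : SFam d D)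

theorem ofReal_gr (t : ℂ) (x : Fin 3 → ℂ) :
    ENNReal.ofReal (F.gr t x) = ∑ k, ‖pd k (F.f t) x‖ₑ ^ 2 := by
  unfold SFam.gr
  rw [ENNReal.ofReal_sum_of_nonneg fun _ _ => sq_nonneg _]
  refine Finset.sum_congr rfl fun k _ => ?_
  rw [ENNReal.ofReal_pow (norm_nonneg _), ofReal_norm]

theorem measurable_gr (t : ℂ) : Measurable fun x => ENNReal.ofReal (F.gr t x) := by
  simp only [ofReal_gr]
  exact Finset.measurable_sum _ fun k _ => ((H373.measurable_pd k (F.f t)).enorm.pow_const 2)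

theorem rs_eq_tsum (k : Fin 3) (t : ℂ) (ψ : (Fin 3 → ℂ) → ℝ≥0∞) (q : ℂ × ℂ)
    (h : ∀ z, F.f t (mq k q z) = F.s → pd k (F.f t) (mq k q z) ≠ 0 →
      pd 2 (F.f t) (mq k q z) ≠ 0) :
    ∑' x : {x // x ∈ (univ : Set (Fin 3 → ℂ)) ∧ F.f t x = F.s ∧ x (fi k) = q.1 ∧ x (se k) = q.2 ∧
      pd 2 (F.f t) x ≠ 0 ∧ pd k (F.f t) x ≠ 0}, ψ x = F.rs k t ψ q := by
  unfold SFam.rs
  let e : F.Rt k t q ≃ {x // x ∈ (univ : Set (Fin 3 → ℂ)) ∧ F.f t x = F.s ∧ x (fi k) = q.1 ∧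
      x (se k) = q.2 ∧ pd 2 (F.f t) x ≠ 0 ∧ pd k (F.f t) x ≠ 0} :=
    { toFun := fun z => ⟨mq k q z, mem_univ _, z.2.1, mq_fi k q z, mq_se k q z,
        h z z.2.1 z.2.2, z.2.2⟩
      invFun := fun x => ⟨x.1 k, by
        obtain ⟨x, -, h1, h2, h3, -, h4⟩ := x
        have : mq k q (x k) = x := mq_eq h2 h3
        exact ⟨by simpa [this] using h1, by simpa [this] using h4⟩⟩
      left_inv := fun z => Subtype.ext (mq_self k q z)
      right_inv := fun x => by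
        obtain ⟨x, -, h1, h2, h3, -, h4⟩ := x
        exact Subtype.ext (mq_eq h2 h3) }
  exact (e.tsum_eq (fun x => ψ x)).symm

theorem nu_eq {t : ℂ} (ht : t ∈ D) {φ : (Fin 3 → ℂ) → ℝ≥0∞} (hφ : Measurable φ) :
    nu (F.f t) F.s φ = ∑ k, ∫⁻ q : ℂ × ℂ,
      F.rs k t (fun x => φ x / ENNReal.ofReal (F.gr t x)) q := by
  set ψ : (Fin 3 → ℂ) → ℝ≥0∞ := fun x => φ x / ENNReal.ofReal (F.gr t x) with hψ
  have hψm : Measurable ψ := hφ.div (F.measurable_gr t)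
  have hpm : ∀ k, Measurable fun x => ‖pd k (F.f t) x‖ₑ ^ 2 := fun k =>
    (H373.measurable_pd k (F.f t)).enorm.pow_const 2
  have hkm : ∀ k, Measurable fun x => ‖pd k (F.f t) x‖ₑ ^ 2 * ψ x := fun k => (hpm k).mul hψm
  obtain ⟨ν, -, -, hν⟩ := H373.exists_measure (Ω := univ) isOpen_univ (F.analyticOnNhd_f t) F.s
  have h1 : nu (F.f t) F.s φ =
      nu (F.f t) F.s (fun x => ∑ k, ‖pd k (F.f t) x‖ₑ ^ 2 * ψ x) := by
    refine H373.nu_congr fun x hx _ => ?_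
    rw [← Finset.sum_mul, ← F.ofReal_gr, hψ]
    have h2 := F.gr_pos ht hx
    rw [ENNReal.mul_div_cancel]
    · simpa using h2
    · finiteness
  rw [h1]
  have h2 : nu (F.f t) F.s (fun x => ∑ k, ‖pd k (F.f t) x‖ₑ ^ 2 * ψ x) =
      ∑ k, nu (F.f t) F.s (fun x => ‖pd k (F.f t) x‖ₑ ^ 2 * ψ x) := by
    have h3 : Measurable fun x => ∑ k, ‖pd k (F.f t) x‖ₑ ^ 2 * ψ x :=
      Finset.measurable_fun_sum _ fun k _ => hkm k
    rw [hν _ h3 (fun x hx => absurd (mem_univ _) hx), lintegral_finsetSum _ fun k _ => hkm k]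
    refine Finset.sum_congr rfl fun k _ => ?_
    rw [hν _ (hkm k) (fun x hx => absurd (mem_univ _) hx)]
  rw [h2]
  refine Finset.sum_congr rfl fun k _ => ?_
  rw [H373.nu_coord (Ω := univ) isOpen_univ (F.analyticOnNhd_f t) (fi_ne_se k) (fi_ne k) (se_ne k)
    F.s (hkm k) (fun x hx => absurd (mem_univ _) hx)
    (fun x _ _ hx => by rw [hx]; simp)]
  refine lintegral_congr_ae ?_
  filter_upwards [F.ae_pd_two (t := t) k] with q hq
  rw [← F.rs_eq_tsum k t ψ q hq]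
  refine tsum_congr fun x => ?_
  obtain ⟨x, -, h3, h4, h5, h6, h7⟩ := x
  simp only
  rw [mul_comm, ENNReal.mul_div_cancel_right]
  · simpa using h7
  · finiteness

end SFam

end Vale.Agent.P298.H412
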