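import Vale.Agent.P298.H412.Poly

/-!
P298, row S1-GEO-R6-B (helper412): the homogenized equation `F.G` of a family.
-/

namespace Vale.Agent.P298.H412

open Filter Topology Metric MeasureTheory Set Vale.Agent.P298 Vale.Agent.P298.H379
open scoped ENNReal NNReal

variable {d : ℕ} {D : Set ℂ}

namespace SFam

variable (F : SFam d D)

theorem sum_mon_le (α : Mon d (d - 1)) : (α.1 0 : ℕ) + α.1 1 + α.1 2 ≤ d - 1 := α.2.1

theorem G_of_ne {t : ℂ} {z : Fin 4 → ℂ} (hz : z 0 ≠ 0) :
    F.G (t, z) = z 0 ^ d * (F.f t (fun i : Fin 3 => z i.succ / z 0) - F.s) := by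
  unfold SFam.G SFam.f ev
  simp only
  have h1 : ∀ i : Fin 3, F.c i * z i.succ ^ d = z 0 ^ d * (F.c i * (z i.succ / z 0) ^ d) := by
    intro i
    rw [div_pow]
    field_simp
  have h2 : ∀ α : Mon d (d - 1), F.a t α * (z 0 ^ (d - (α.1 0 + α.1 1 + α.1 2 : ℕ)) *
      ∏ i : Fin 3, z i.succ ^ (α.1 i : ℕ)) =
      z 0 ^ d * (F.a t α * ∏ i : Fin 3, (z i.succ / z 0) ^ (α.1 i : ℕ)) := by
    intro α
    have h3 : (α.1 0 : ℕ) + α.1 1 + α.1 2 ≤ d := (sum_mon_le α).trans (Nat.sub_le _ _)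
    have h4 : z 0 ^ d = z 0 ^ (d - (α.1 0 + α.1 1 + α.1 2 : ℕ)) *
        (z 0 ^ (α.1 0 : ℕ) * z 0 ^ (α.1 1 : ℕ) * z 0 ^ (α.1 2 : ℕ)) := by
      rw [← pow_add, ← pow_add, ← pow_add]
      congr 1
      omega
    rw [h4, Fin.prod_univ_three, Fin.prod_univ_three]
    simp only [div_pow]
    field_simp
  rw [Finset.sum_congr rfl fun i _ => h1 i, Finset.sum_congr rfl fun α _ => h2 α,
    ← Finset.mul_sum, ← Finset.mul_sum]
  ring

theorem G_cons (t : ℂ) (x : Fin 3 → ℂ) : F.G (t, Fin.cons 1 x) = F.f t x - F.s := by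
  have h := F.G_of_ne (t := t) (z := (Fin.cons 1 x : Fin 4 → ℂ)) (by simp)
  rw [h]
  simp

theorem G_hom (t : ℂ) (c : ℂ) (z : Fin 4 → ℂ) : F.G (t, c • z) = c ^ d * F.G (t, z) := by
  unfold SFam.G
  simp only [Pi.smul_apply, smul_eq_mul, mul_pow]
  have h2 : ∀ α : Mon d (d - 1), F.a t α * (c ^ (d - (α.1 0 + α.1 1 + α.1 2 : ℕ)) *
      z 0 ^ (d - (α.1 0 + α.1 1 + α.1 2 : ℕ)) *
      ∏ i : Fin 3, (c ^ (α.1 i : ℕ) * z i.succ ^ (α.1 i : ℕ))) =
      c ^ d * (F.a t α * (z 0 ^ (d - (α.1 0 + α.1 1 + α.1 2 : ℕ)) *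
        ∏ i : Fin 3, z i.succ ^ (α.1 i : ℕ))) := by
    intro α
    have h3 : (α.1 0 : ℕ) + α.1 1 + α.1 2 ≤ d := (sum_mon_le α).trans (Nat.sub_le _ _)
    have h4 : c ^ d = c ^ (d - (α.1 0 + α.1 1 + α.1 2 : ℕ)) *
        (c ^ (α.1 0 : ℕ) * c ^ (α.1 1 : ℕ) * c ^ (α.1 2 : ℕ)) := by
      rw [← pow_add, ← pow_add, ← pow_add]
      congr 1
      omega
    rw [h4, Fin.prod_univ_three, Fin.prod_univ_three]
    ring
  rw [Finset.sum_congr rfl fun α _ => h2 α, ← Finset.mul_sum]
  have h1 : ∑ i : Fin 3, F.c i * (c ^ d * z i.succ ^ d) =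
      c ^ d * ∑ i : Fin 3, F.c i * z i.succ ^ d := by
    rw [Finset.mul_sum]
    exact Finset.sum_congr rfl fun i _ => by ring
  rw [h1]
  ring

theorem G_analytic : AnalyticOnNhd ℂ F.G (D ×ˢ univ) := by
  rintro ⟨t, z⟩ ⟨ht, -⟩
  have ha : ∀ α, AnalyticAt ℂ (fun p : ℂ × (Fin 4 → ℂ) => F.a p.1 α) (t, z) := fun α =>
    ((differentiableOn_pi.1 F.holo α).analyticAt (F.hD.mem_nhds ht)).comp
      (f := fun p : ℂ × (Fin 4 → ℂ) => p.1) analyticAt_fst
  have hco : ∀ k : Fin 4, AnalyticAt ℂ (fun p : ℂ × (Fin 4 → ℂ) => p.2 k) (t, z) := fun k =>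
    ((ContinuousLinearMap.proj (R := ℂ) (φ := fun _ : Fin 4 => ℂ) k).comp
      (ContinuousLinearMap.snd ℂ ℂ (Fin 4 → ℂ))).analyticAt (t, z)
  unfold SFam.G
  refine AnalyticAt.sub (AnalyticAt.add ?_ ?_) ?_
  · exact Finset.analyticAt_fun_sum _ fun i _ => analyticAt_const.mul ((hco _).pow _)
  · refine Finset.analyticAt_fun_sum _ fun α _ => (ha α).mul (((hco _).pow _).mul ?_)
    exact Finset.analyticAt_fun_prod _ fun i _ => (hco _).pow _
  · exact analyticAt_const.mul ((hco _).pow _)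

theorem hasDerivAt_line {g : ℂ × (Fin 4 → ℂ) → ℂ} {t : ℂ} {z : Fin 4 → ℂ}
    (hg : DifferentiableAt ℂ g (t, z)) (j : Fin 4) :
    HasDerivAt (fun w => g (t, Function.update z j w)) (H217.Gen.dz g (t, z) (Pi.single j 1))
      (z j) := by
  have h1 : HasDerivAt (fun w : ℂ => Function.update z j w) (Pi.single j (1 : ℂ)) (z j) :=
    hasDerivAt_update (x := z) (i := j) (z j)
  have h2 : HasDerivAt (fun w : ℂ => (t, Function.update z j w)) (0, Pi.single j (1 : ℂ)) (z j) :=
    (hasDerivAt_const (z j) t).prodMk h1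
  have h3 : HasFDerivAt g (fderiv ℂ g (t, z)) ((fun w : ℂ => (t, Function.update z j w)) (z j)) := by
    simpa using hg.hasFDerivAt
  exact h3.comp_hasDerivAt (z j) h2

/-- the projective surface is smooth -/
theorem G_reg {t : ℂ} (ht : t ∈ D) {z : Fin 4 → ℂ} (hz : z ≠ 0) (h0 : F.G (t, z) = 0) :
    ∃ v, H217.Gen.dz F.G (t, z) v ≠ 0 := by
  have hdiff : DifferentiableAt ℂ F.G (t, z) :=
    (F.G_analytic (t, z) ⟨ht, mem_univ _⟩).differentiableAt
  have hd := F.hd
  by_cases hz0 : z 0 = 0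
  · -- a point at infinity
    obtain ⟨i, hi⟩ : ∃ i : Fin 3, z i.succ ≠ 0 := by
      by_contra hcon
      push Not at hcon
      apply hz
      ext j
      refine Fin.cases hz0 (fun i => hcon i) j
    refine ⟨Pi.single i.succ 1, ?_⟩
    have h1 := hasDerivAt_line hdiff i.succ
    have h2 : ∀ w : ℂ, F.G (t, Function.update z i.succ w) =
        F.c i * w ^ d + ∑ j ∈ Finset.univ.erase i, F.c j * z j.succ ^ d := by
      intro w
      unfold SFam.G
      simp only
      have h3 : Function.update z i.succ w 0 = 0 := by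
        rw [Function.update_of_ne (Fin.succ_ne_zero i).symm, hz0]
      rw [h3]
      have h4 : ∀ α : Mon d (d - 1), (0 : ℂ) ^ (d - (α.1 0 + α.1 1 + α.1 2 : ℕ)) = 0 := by
        intro α
        apply zero_pow
        have := sum_mon_le α
        omega
      simp only [h4, zero_mul, mul_zero, Finset.sum_const_zero, add_zero,
        zero_pow (show d ≠ 0 by omega), sub_zero]
      rw [← Finset.add_sum_erase Finset.univ _ (Finset.mem_univ i), Function.update_self]
      congr 1
      refine Finset.sum_congr rfl fun j hj => ?_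
      rw [Function.update_of_ne]
      intro h
      exact (Finset.ne_of_mem_erase hj) (Fin.succ_injective _ h)
    have h5 : HasDerivAt (fun w => F.G (t, Function.update z i.succ w))
        (F.c i * (d * z i.succ ^ (d - 1))) (z i.succ) := by
      rw [funext h2]
      exact ((hasDerivAt_pow d (z i.succ)).const_mul (F.c i)).add_const _
    rw [h1.unique h5]
    refine mul_ne_zero (F.hc i) (mul_ne_zero ?_ (pow_ne_zero _ hi))
    exact_mod_cast F.d_pos.ne'
  · -- an affine point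
    have h1 : F.f t (fun i : Fin 3 => z i.succ / z 0) = F.s := by
      rw [F.G_of_ne hz0] at h0
      rcases mul_eq_zero.1 h0 with h | h
      · exact absurd (pow_eq_zero_iff F.d_pos.ne' |>.1 h) hz0
      · exact sub_eq_zero.1 h
    obtain ⟨i, hi⟩ := F.smooth t ht _ h1
    refine ⟨Pi.single i.succ 1, ?_⟩
    have h2 := hasDerivAt_line hdiff i.succ
    set x : Fin 3 → ℂ := fun i => z i.succ / z 0 with hx
    have h3 : ∀ w : ℂ, F.G (t, Function.update z i.succ w) =
        z 0 ^ d * (F.f t (Function.update x i (w / z 0)) - F.s) := by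
      intro w
      have h4 : Function.update z i.succ w 0 = z 0 := by
        rw [Function.update_of_ne (Fin.succ_ne_zero i).symm]
      rw [F.G_of_ne (by rw [h4]; exact hz0), h4]
      congr 3
      ext j
      by_cases hj : j = i
      · subst hj
        simp
      · rw [Function.update_of_ne hj, Function.update_of_ne]
        intro h
        exact hj (Fin.succ_injective _ h)
    have h5 : HasDerivAt (fun w => F.G (t, Function.update z i.succ w))
        (z 0 ^ d * (pd i (F.f t) x * (1 / z 0))) (z i.succ) := by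
      rw [funext h3]
      refine HasDerivAt.const_mul _ (HasDerivAt.sub_const _ ?_)
      have h6 := pd_eq_deriv (F.differentiable_f t) i x (z i.succ / z 0)
      have h7 : Function.update x i (z i.succ / z 0) = x := by
        rw [show z i.succ / z 0 = x i from rfl, Function.update_eq_self]
      rw [h7] at h6
      have h8 : HasDerivAt (fun w : ℂ => w / z 0) (1 / z 0) (z i.succ) :=
        (hasDerivAt_id (z i.succ)).div_const _
      exact h6.comp (z i.succ) h8
    rw [h2.unique h5]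
    refine mul_ne_zero (pow_ne_zero _ hz0) (mul_ne_zero hi ?_)
    exact one_div_ne_zero hz0

end SFam

end Vale.Agent.P298.H412
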