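import Vale.Agent.P298.H412.NCont
import Vale.Agent.P298.H265.S1

/-!
P298, row S1-GEO-R6-B (helper412): from the geometry of generic members to the final form of the
block S1.
-/

namespace Vale.Agent.P298.H412

open Filter Topology Metric MeasureTheory Set Vale.Agent.P298 Vale.Agent.P298.H379
open scoped ENNReal NNReal

variable {d : ℕ} {D : Set ℂ}

/-- restriction of a family to a smaller base -/
def SFam.restrict (F : SFam d D) {D' : Set ℂ} (hD' : IsOpen D') (h : D' ⊆ D) : SFam d D' where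
  c := F.c
  a := F.a
  s := F.s
  hd := F.hd
  hD := hD'
  hc := F.hc
  holo := F.holo.mono h
  smooth := fun t ht => F.smooth t (h ht)

/-- translation of the parameter -/
def SFam.shift (F : SFam d D) (t₀ : ℂ) : SFam d ((fun t => t₀ + t) ⁻¹' D) where
  c := F.c
  a := fun t => F.a (t₀ + t)
  s := F.s
  hd := F.hd
  hD := F.hD.preimage (continuous_const.add continuous_id)
  hc := F.hc
  holo := F.holo.comp (by fun_prop) (fun t ht => ht)
  smooth := fun t ht => F.smooth (t₀ + t) ht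

theorem HomFam.mono {n : ℕ} {H : ℂ × (Fin 4 → ℂ) → ℂ} (h : HomFam D n H) {D' : Set ℂ}
    (hD : D' ⊆ D) : HomFam D' n H where
  an := fun p hp => h.an p ⟨hD hp.1, mem_univ _⟩
  hom := fun t ht => h.hom t (hD ht)

theorem HomFam.shift {n : ℕ} {H : ℂ × (Fin 4 → ℂ) → ℂ} (h : HomFam D n H) (t₀ : ℂ) :
    HomFam ((fun t => t₀ + t) ⁻¹' D) n (fun p => H (t₀ + p.1, p.2)) where
  an := fun p hp => by
    have h1 : AnalyticAt ℂ H ((fun p : ℂ × (Fin 4 → ℂ) => (t₀ + p.1, p.2)) p) :=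
      h.an _ ⟨hp.1, mem_univ _⟩
    exact AnalyticAt.comp (g := H) (f := fun p : ℂ × (Fin 4 → ℂ) => (t₀ + p.1, p.2)) h1
      ((analyticAt_const.add analyticAt_fst).prod analyticAt_snd)
  hom := fun t ht => h.hom (t₀ + t) ht

theorem HomFam.sq {n : ℕ} {H : ℂ × (Fin 4 → ℂ) → ℂ} (h : HomFam D n H) :
    HomFam D (2 * n) (fun p => H p ^ 2) where
  an := fun p hp => (h.an p hp).pow 2
  hom := fun t ht c z => by
    rw [h.hom t ht, mul_pow, ← pow_mul, mul_comm n 2]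

/-- the exponent `1` from the exponent `2` -/
theorem SFam.N_sq (F : SFam d D) (H : ℂ × (Fin 4 → ℂ) → ℂ) (t : ℂ) :
    F.N 2 (fun p => H p ^ 2) t = F.N 1 H t := by
  unfold SFam.N
  congr 1
  funext x
  have h1 : ‖H (t, Fin.cons 1 x) ^ 2‖ₑ = ‖H (t, Fin.cons 1 x)‖ₑ ^ 2 := enorm_pow _ _
  rw [h1]
  norm_num

/-- a slightly larger closed disc -/
theorem exists_larger {R : ℝ} (hR : 0 ≤ R) (hD : IsOpen D) (h : closedBall (0 : ℂ) R ⊆ D) :
    ∃ R' : ℝ, R < R' ∧ closedBall (0 : ℂ) R' ⊆ D := by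
  obtain ⟨δ, hδ, hsub⟩ := (isCompact_closedBall (0 : ℂ) R).exists_thickening_subset_open hD h
  rw [thickening_closedBall hδ hR] at hsub
  exact ⟨R + δ / 2, by linarith, (closedBall_subset_ball (by linarith)).trans hsub⟩

theorem goodAt_iff {F : SFam d D} {H : ℂ × (Fin 4 → ℂ) → ℂ} {n : ℕ} {a : PC4} {t : ℂ}
    (h : ¬ ∃ z, z ≠ 0 ∧ H217.Gen.BadAt F.G H n a (t, z)) :
    GoodAt F.G (H217.Gen.Ha H n a) t := by
  intro z hz h1 h2
  by_contra hcon
  push Not at hcon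
  exact h ⟨z, hz, h1, h2, fun v w => hcon v w⟩

theorem tendsto_N_aux (F : SFam d D) {m : ℕ} (hm : 1 ≤ m) {H : ℂ × (Fin 4 → ℂ) → ℂ}
    (hH : HomFam D (m * (d - 4)) H) {t₀ : ℂ} (ht₀ : t₀ ∈ D) (a₀ : PC4) :
    Tendsto (fun y : ℂ × PC4 => F.N m (H217.Gen.Ha H (m * (d - 4)) y.2) y.1)
      (𝓝 (t₀, a₀)) (𝓝 (F.N m (H217.Gen.Ha H (m * (d - 4)) a₀) t₀)) :=
  (F.continuousAt_N hm hH ht₀ a₀).1

theorem tendsto_pair {Y Z : Type*} [TopologicalSpace Y] [TopologicalSpace Z] {G : Y × Z → ℝ≥0∞}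
    {y₀ : Y} {z₀ : Z} {c : ℝ≥0∞} (h1 : Tendsto G (𝓝 (y₀, z₀)) (𝓝 c)) {X : Type*} {l : Filter X}
    {u : X → Y} {v : X → Z} (hu : Tendsto u l (𝓝 y₀)) (hv : Tendsto v l (𝓝 z₀)) :
    Tendsto (fun x => G (u x, v x)) l (𝓝 c) := h1.comp (hu.prodMk_nhds hv)

/-- joint continuity of the integral in the parameter and the perturbation -/
theorem tendsto_N (F : SFam d D) {m : ℕ} (hm : 1 ≤ m) {H : ℂ × (Fin 4 → ℂ) → ℂ}
    (hH : HomFam D (m * (d - 4)) H) {t₀ : ℂ} (ht₀ : t₀ ∈ D) (a₀ : PC4) {X : Type*} {l : Filter X}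
    {u : X → ℂ} {v : X → PC4} (hu : Tendsto u l (𝓝 t₀)) (hv : Tendsto v l (𝓝 a₀)) :
    Tendsto (fun x => F.N m (H217.Gen.Ha H (m * (d - 4)) (v x)) (u x)) l
      (𝓝 (F.N m (H217.Gen.Ha H (m * (d - 4)) a₀) t₀)) := by
  have h := tendsto_pair (tendsto_N_aux F hm hH ht₀ a₀) hu hv
  exact h

theorem continuousOn_N_toReal (F : SFam d D) {m : ℕ} (hm : 1 ≤ m) {H : ℂ × (Fin 4 → ℂ) → ℂ}
    (hH : HomFam D (m * (d - 4)) H) (a : PC4) :
    ContinuousOn (fun t => (F.N m (H217.Gen.Ha H (m * (d - 4)) a) t).toReal) D := by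
  intro t ht
  have h1 : Tendsto (fun t' => F.N m (H217.Gen.Ha H (m * (d - 4)) a) t') (𝓝 t)
      (𝓝 (F.N m (H217.Gen.Ha H (m * (d - 4)) a) t)) :=
    tendsto_N F hm hH ht a tendsto_id tendsto_const_nhds
  have h2 : F.N m (H217.Gen.Ha H (m * (d - 4)) a) t < ∞ := (F.continuousAt_N hm hH ht a).2
  have h3 : Tendsto (fun t' => (F.N m (H217.Gen.Ha H (m * (d - 4)) a) t').toReal) (𝓝 t)
      (𝓝 (F.N m (H217.Gen.Ha H (m * (d - 4)) a) t).toReal) :=
    (ENNReal.tendsto_toReal h2.ne).comp h1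
  exact ContinuousAt.continuousWithinAt h3

/-- **The generic members**: conclusions of the abstract half of S1 for almost every
perturbation. -/
theorem generic_real (geo : GeoOut) (F : SFam d D) {m : ℕ} (hm : 2 ≤ m)
    {H : ℂ × (Fin 4 → ℂ) → ℂ} (hH : HomFam D (m * (d - 4)) H) {R : ℝ} (hR : 0 < R)
    (hRD : closedBall 0 R ⊆ D) :
    ∀ᵐ a : PC4,
      (∀ B : ℝ, (∀ t : ℂ, R / 11 ≤ ‖t‖ → ‖t‖ ≤ R →
          (F.N m (H217.Gen.Ha H (m * (d - 4)) a) t).toReal ≤ B) →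
        ∀ t ∈ closedBall (0 : ℂ) R, (F.N m (H217.Gen.Ha H (m * (d - 4)) a) t).toReal ≤ 2 * B) ∧
      (∀ t : ℂ, ‖t‖ ≤ R / 2 → (F.N m (H217.Gen.Ha H (m * (d - 4)) a) t).toReal ≤
        8000 * ((∫ z in ball (0 : ℂ) R, (F.N m (H217.Gen.Ha H (m * (d - 4)) a) z).toReal) /
          (Real.pi * R ^ 2))) := by
  have hd := F.hd
  set n := m * (d - 4) with hn
  have hn1 : 1 ≤ n := Nat.one_le_iff_ne_zero.2 (Nat.mul_ne_zero (by omega) (by omega))
  obtain ⟨R', hRR', hR'D⟩ := exists_larger hR.le F.hD hRD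
  have hgen := H217.Gen.generic (D := D) (G := F.G) (H := H) (d := d) F.hD hn1 F.G_analytic hH.an
    (fun t _ s z => F.G_hom t s z) (fun t ht s z => hH.hom t ht s z)
    (fun t ht z hz h0 => F.G_reg ht hz h0)
  filter_upwards [hgen] with a ha
  have hfin := ha (closedBall 0 R') hR'D (isCompact_closedBall _ _)
  set T : Set ℂ := {t | t ∈ closedBall (0 : ℂ) R' ∧
    ∃ z, z ≠ 0 ∧ H217.Gen.BadAt F.G H n a (t, z)} with hT
  have hsub : ball (0 : ℂ) R' ⊆ D := ball_subset_closedBall.trans hR'D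
  set F' : SFam d (ball 0 R') := F.restrict isOpen_ball hsub with hF'
  have hHa : HomFam D n (H217.Gen.Ha H n a) := hH.ha hn1 a
  have hgood : ∀ t ∈ ball (0 : ℂ) R' \ T, GoodAt F'.G (H217.Gen.Ha H n a) t := by
    intro t ht
    have : ¬ ∃ z, z ≠ 0 ∧ H217.Gen.BadAt F.G H n a (t, z) := fun h =>
      ht.2 ⟨ball_subset_closedBall ht.1, h⟩
    exact goodAt_iff (F := F) this
  have hHa' : HomFam (ball (0 : ℂ) R') (m * (d - 4)) (H217.Gen.Ha H n a) := hHa.mono hsub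
  have hsub' : closedBall (0 : ℂ) R ⊆ ball 0 R' := closedBall_subset_ball hRR'
  obtain ⟨K, x, y, hxy, hconn⟩ := geo F' m hm (H217.Gen.Ha H n a) hHa' T hfin hgood R hR hsub'
  have hcont : ContinuousOn (fun t => (F.N m (H217.Gen.Ha H n a) t).toReal) (closedBall 0 R) :=
    (continuousOn_N_toReal F (by omega : 1 ≤ m) hH a).mono hRD
  have hnn : ∀ t ∈ closedBall (0 : ℂ) R, 0 ≤ (F.N m (H217.Gen.Ha H n a) t).toReal :=
    fun t _ => ENNReal.toReal_nonneg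
  have hconn' : ∀ t ∈ ball (0 : ℂ) R \ T,
      H265.HasConn (fun t => (F.N m (H217.Gen.Ha H n a) t).toReal) x y t := hconn
  exact H265.s1Abs (N := fun t => (F.N m (H217.Gen.Ha H n a) t).toReal) (x := x) (y := y) (T := T)
    (K := K) hR hfin hcont hnn hxy hconn'

end Vale.Agent.P298.H412
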