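import Vale.Agent.P298.H412.Cont
import Vale.Agent.P298.H412.Hom

/-!
P298, row S1-GEO-R6-B (helper412): continuity of `N_m(H + perturbation)(t)` in the parameter `t`
and the coefficients of the perturbation.
-/

namespace Vale.Agent.P298.H412

open Filter Topology Metric MeasureTheory Set Vale.Agent.P298 Vale.Agent.P298.H379
open scoped ENNReal NNReal

variable {d : ℕ} {D : Set ℂ}

/-- coefficients of the perturbation -/
abbrev PC4 : Type := Fin 4 → Fin 4 → ℂ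

theorem continuous_pert (n : ℕ) :
    Continuous fun p : PC4 × (Fin 4 → ℂ) => H217.Gen.pert n p.1 p.2 := by
  unfold H217.Gen.pert
  fun_prop

theorem pert_zero (n : ℕ) (z : Fin 4 → ℂ) : H217.Gen.pert n (0 : PC4) z = 0 := by
  simp [H217.Gen.pert]

theorem Ha_zero (H : ℂ × (Fin 4 → ℂ) → ℂ) (n : ℕ) : H217.Gen.Ha H n (0 : PC4) = H := by
  funext p
  simp [H217.Gen.Ha, pert_zero]

theorem analytic_pert (n : ℕ) (a : PC4) (p : ℂ × (Fin 4 → ℂ)) :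
    AnalyticAt ℂ (fun p : ℂ × (Fin 4 → ℂ) => H217.Gen.pert n a p.2) p := by
  have hco : ∀ k : Fin 4, AnalyticAt ℂ (fun p : ℂ × (Fin 4 → ℂ) => p.2 k) p := fun k =>
    ((ContinuousLinearMap.proj (R := ℂ) (φ := fun _ : Fin 4 => ℂ) k).comp
      (ContinuousLinearMap.snd ℂ ℂ (Fin 4 → ℂ))).analyticAt p
  unfold H217.Gen.pert
  exact Finset.analyticAt_fun_sum _ fun i _ => Finset.analyticAt_fun_sum _ fun j _ =>
    (analyticAt_const.mul ((hco _).pow _)).mul (hco _)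

theorem HomFam.ha {n : ℕ} (hn : 1 ≤ n) {H : ℂ × (Fin 4 → ℂ) → ℂ} (h : HomFam D n H) (a : PC4) :
    HomFam D n (H217.Gen.Ha H n a) where
  an := fun p hp => (h.an p hp).add (analytic_pert n a p)
  hom := fun t ht c z => by
    show H (t, c • z) + H217.Gen.pert n a (c • z) = c ^ n * (H (t, z) + H217.Gen.pert n a z)
    rw [h.hom t ht, H217.Gen.pert_smul hn]
    ring

theorem HomFam.continuousAt {n : ℕ} {H : ℂ × (Fin 4 → ℂ) → ℂ} (h : HomFam D n H) {t : ℂ}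
    (ht : t ∈ D) (z : Fin 4 → ℂ) : ContinuousAt H (t, z) :=
  (h.an (t, z) ⟨ht, mem_univ _⟩).continuousAt

/-- joint continuity of the perturbed function -/
theorem HomFam.continuousAt_ha {n : ℕ} {H : ℂ × (Fin 4 → ℂ) → ℂ} (h : HomFam D n H) {t : ℂ}
    (ht : t ∈ D) (a : PC4) (z : Fin 4 → ℂ) :
    ContinuousAt (fun p : (ℂ × PC4) × (Fin 4 → ℂ) => H217.Gen.Ha H n p.1.2 (p.1.1, p.2))
      ((t, a), z) := by
  have h2 : Tendsto H (𝓝 (t, z)) (𝓝 (H (t, z))) := h.continuousAt ht z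
  have h3 : Tendsto (fun p : (ℂ × PC4) × (Fin 4 → ℂ) => (p.1.1, p.2)) (𝓝 ((t, a), z))
      (𝓝 (t, z)) :=
    ((continuous_fst.comp continuous_fst).prodMk continuous_snd).tendsto ((t, a), z)
  have h4 : Tendsto (fun p : (ℂ × PC4) × (Fin 4 → ℂ) => H217.Gen.pert n p.1.2 p.2)
      (𝓝 ((t, a), z)) (𝓝 (H217.Gen.pert n a z)) :=
    ((continuous_pert n).comp
      ((continuous_snd.comp continuous_fst).prodMk continuous_snd)).tendsto ((t, a), z)
  exact (h2.comp h3).add h4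

theorem norm_cons_le (x : Fin 3 → ℂ) : ‖(Fin.cons 1 x : Fin 4 → ℂ)‖ ≤ 1 + ‖x‖ := by
  refine (pi_norm_le_iff_of_nonneg (by positivity)).2 fun j => ?_
  refine Fin.cases ?_ (fun i => ?_) j
  · simp
  · rw [Fin.cons_succ]
    have := norm_le_pi_norm x i
    linarith

theorem cons_ne_zero (x : Fin 3 → ℂ) : (Fin.cons 1 x : Fin 4 → ℂ) ≠ 0 := fun h => by
  have := congrFun h 0
  simp at this

/-- growth of the perturbed function, locally uniform in the parameters -/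
theorem HomFam.growth {n : ℕ} (hn : 1 ≤ n) (hD : IsOpen D) {H : ℂ × (Fin 4 → ℂ) → ℂ}
    (h : HomFam D n H) {t₀ : ℂ} (ht₀ : t₀ ∈ D) (a₀ : PC4) :
    ∃ B : ℝ, 0 ≤ B ∧ ∀ᶠ y : ℂ × PC4 in 𝓝 (t₀, a₀), ∀ x : Fin 3 → ℂ,
      ‖H217.Gen.Ha H n y.2 (y.1, Fin.cons 1 x)‖ ≤ B * (1 + ‖x‖) ^ n := by
  obtain ⟨ρ, hρ, hball⟩ := Metric.nhds_basis_closedBall.mem_iff.1 (hD.mem_nhds ht₀)
  set K : Set ((ℂ × PC4) × (Fin 4 → ℂ)) :=
    (closedBall t₀ ρ ×ˢ closedBall a₀ 1) ×ˢ closedBall 0 1 with hK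
  have hKc : IsCompact K :=
    ((isCompact_closedBall _ _).prod (isCompact_closedBall _ _)).prod (isCompact_closedBall _ _)
  have hcont : ContinuousOn (fun p : (ℂ × PC4) × (Fin 4 → ℂ) =>
      H217.Gen.Ha H n p.1.2 (p.1.1, p.2)) K := by
    rintro ⟨⟨t, a⟩, z⟩ hp
    exact (h.continuousAt_ha (hball hp.1.1) a z).continuousWithinAt
  obtain ⟨B, hB⟩ := hKc.exists_bound_of_continuousOn hcont
  refine ⟨max B 0, le_max_right _ _, ?_⟩
  have hev : ∀ᶠ y : ℂ × PC4 in 𝓝 (t₀, a₀), y ∈ closedBall t₀ ρ ×ˢ closedBall a₀ 1 :=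
    prod_mem_nhds (closedBall_mem_nhds _ hρ) (closedBall_mem_nhds _ one_pos)
  filter_upwards [hev] with y hy x
  set z : Fin 4 → ℂ := Fin.cons 1 x with hz
  have hz0 : 0 < ‖z‖ := norm_pos_iff.2 (cons_ne_zero x)
  have h1 := (h.ha hn y.2).hom y.1 (hball hy.1) (‖z‖ : ℂ) (((‖z‖ : ℂ)⁻¹) • z)
  have hz0' : (‖z‖ : ℂ) ≠ 0 := by exact_mod_cast hz0.ne'
  rw [smul_smul, mul_inv_cancel₀ hz0', one_smul] at h1
  rw [h1, norm_mul, norm_pow, Complex.norm_real, norm_norm]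
  have h2 : ‖((‖z‖ : ℂ)⁻¹) • z‖ ≤ 1 := by
    rw [norm_smul, norm_inv, Complex.norm_real, norm_norm, inv_mul_cancel₀ hz0.ne']
  have h3 := hB (y, ((‖z‖ : ℂ)⁻¹) • z) ⟨hy, by simpa using h2⟩
  have h4 : ‖H217.Gen.Ha H n y.2 (y.1, ((‖z‖ : ℂ)⁻¹) • z)‖ ≤ max B 0 := h3.trans (le_max_left _ _)
  calc ‖z‖ ^ n * ‖H217.Gen.Ha H n y.2 (y.1, ((‖z‖ : ℂ)⁻¹) • z)‖ ≤ (1 + ‖x‖) ^ n * max B 0 :=
        mul_le_mul (pow_le_pow_left₀ (norm_nonneg _) (norm_cons_le x) n) h4 (norm_nonneg _)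
          (by positivity)
    _ = max B 0 * (1 + ‖x‖) ^ n := mul_comm _ _

namespace SFam

variable (F : SFam d D)

theorem continuousAt_N {m : ℕ} (hm : 1 ≤ m) {H : ℂ × (Fin 4 → ℂ) → ℂ}
    (hH : HomFam D (m * (d - 4)) H) {t₀ : ℂ} (ht₀ : t₀ ∈ D) (a₀ : PC4) :
    ContinuousAt (fun y : ℂ × PC4 => F.N m (H217.Gen.Ha H (m * (d - 4)) y.2) y.1) (t₀, a₀) ∧
      F.N m (H217.Gen.Ha H (m * (d - 4)) a₀) t₀ < ∞ := by
  have hd := F.hd
  set n := m * (d - 4) with hn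
  have hn1 : 1 ≤ n := Nat.one_le_iff_ne_zero.2 (Nat.mul_ne_zero (by omega) (by omega))
  obtain ⟨B, hB0, hB⟩ := hH.growth hn1 F.hD ht₀ a₀
  have hm0 : (0 : ℝ) < m := by exact_mod_cast hm
  have hexp : 0 ≤ 2 / (m : ℝ) := by positivity
  set δ : ℂ × PC4 → (Fin 3 → ℂ) → ℝ≥0∞ := fun y x =>
    ‖H217.Gen.Ha H n y.2 (y.1, Fin.cons 1 x)‖ₑ ^ (2 / (m : ℝ)) with hδ
  have hcons : Continuous fun x : Fin 3 → ℂ => (Fin.cons 1 x : Fin 4 → ℂ) := by
    refine continuous_pi fun j => ?_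
    refine Fin.cases ?_ (fun i => ?_) j
    · simp only [Fin.cons_zero]; exact continuous_const
    · simp only [Fin.cons_succ]; exact continuous_apply i
  have key := F.continuousAt_nu (τ := fun y : ℂ × PC4 => y.1) (y₀ := (t₀, a₀)) continuousAt_fst
    ht₀ (δ := δ) (C := B ^ (2 / (m : ℝ))) (g := 2 * ((d : ℝ) - 4)) ?_ ?_ (by positivity)
    (by linarith) ?_
  · exact key
  · -- measurability
    have hev : ∀ᶠ y : ℂ × PC4 in 𝓝 (t₀, a₀), y.1 ∈ D :=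
      continuousAt_fst (F.hD.mem_nhds ht₀)
    filter_upwards [hev] with y hy
    have hc : Continuous fun x : Fin 3 → ℂ => H217.Gen.Ha H n y.2 (y.1, Fin.cons 1 x) := by
      rw [continuous_iff_continuousAt]
      intro x
      have h1 := (hH.ha hn1 y.2).continuousAt hy (Fin.cons 1 x : Fin 4 → ℂ)
      exact ContinuousAt.comp (f := fun x : Fin 3 → ℂ => (y.1, (Fin.cons 1 x : Fin 4 → ℂ))) h1
        (continuous_const.prodMk hcons).continuousAt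
    exact (hc.measurable.enorm).pow_const _
  · -- joint continuity
    intro x
    have h1 : Tendsto (fun p : (ℂ × PC4) × (Fin 4 → ℂ) => H217.Gen.Ha H n p.1.2 (p.1.1, p.2))
        (𝓝 ((t₀, a₀), (Fin.cons 1 x : Fin 4 → ℂ)))
        (𝓝 (H217.Gen.Ha H n a₀ (t₀, (Fin.cons 1 x : Fin 4 → ℂ)))) :=
      hH.continuousAt_ha ht₀ a₀ (Fin.cons 1 x : Fin 4 → ℂ)
    have h2 : Tendsto (fun p : (ℂ × PC4) × (Fin 3 → ℂ) => (p.1, (Fin.cons 1 p.2 : Fin 4 → ℂ)))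
        (𝓝 ((t₀, a₀), x)) (𝓝 ((t₀, a₀), (Fin.cons 1 x : Fin 4 → ℂ))) :=
      (continuous_fst.prodMk (hcons.comp continuous_snd)).tendsto ((t₀, a₀), x)
    have h3 := (h1.comp h2).enorm
    exact (ENNReal.continuous_rpow_const.tendsto _).comp h3
  · -- growth
    filter_upwards [hB] with y hy x
    have h1 : ‖H217.Gen.Ha H n y.2 (y.1, Fin.cons 1 x)‖ₑ ≤ ENNReal.ofReal (B * (1 + ‖x‖) ^ n) := by
      rw [← ofReal_norm]
      exact ENNReal.ofReal_le_ofReal (hy x)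
    calc δ y x ≤ ENNReal.ofReal (B * (1 + ‖x‖) ^ n) ^ (2 / (m : ℝ)) :=
          ENNReal.rpow_le_rpow h1 hexp
      _ = ENNReal.ofReal ((B * (1 + ‖x‖) ^ n) ^ (2 / (m : ℝ))) :=
          ENNReal.ofReal_rpow_of_nonneg (by positivity) hexp
      _ = ENNReal.ofReal (B ^ (2 / (m : ℝ)) * (1 + ‖x‖) ^ (2 * ((d : ℝ) - 4))) := by
          congr 1
          rw [Real.mul_rpow hB0 (by positivity), ← Real.rpow_natCast (1 + ‖x‖) n,
            ← Real.rpow_mul (by positivity)]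
          congr 2
          rw [hn]
          push_cast [Nat.cast_sub (by omega : 4 ≤ d)]
          field_simp

end SFam

end Vale.Agent.P298.H412
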