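import Vale.Agent.P298.H412.RootCont
import Vale.Agent.P298.H373.Nu

/-!
P298, row S1-GEO-R6-B (helper412): for almost every point of the coordinate planes all roots are
simple and no root is degenerate in the direction of the last variable.
-/

namespace Vale.Agent.P298.H412

open Filter Topology Metric MeasureTheory Set Vale.Agent.P298 Vale.Agent.P298.H379
open scoped ENNReal NNReal

variable {d : ℕ} {D : Set ℂ}

/-- first coordinate of the plane complementary to the axis `k` -/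
def fi (k : Fin 3) : Fin 3 := match k with
  | 0 => 1
  | 1 => 0
  | 2 => 0

/-- second coordinate of the plane complementary to the axis `k` -/
def se (k : Fin 3) : Fin 3 := match k with
  | 0 => 2
  | 1 => 2
  | 2 => 1

theorem fi_ne_se (k : Fin 3) : fi k ≠ se k := by fin_cases k <;> simp [fi, se]

theorem fi_ne (k : Fin 3) : fi k ≠ k := by fin_cases k <;> simp [fi]

theorem se_ne (k : Fin 3) : se k ≠ k := by fin_cases k <;> simp [se]

theorem mq_fi (k : Fin 3) (q : ℂ × ℂ) (z : ℂ) : mq k q z (fi k) = q.1 := by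
  fin_cases k <;> simp [fi, mq]

theorem mq_se (k : Fin 3) (q : ℂ × ℂ) (z : ℂ) : mq k q z (se k) = q.2 := by
  fin_cases k <;> simp [se, mq]

theorem mq_eq {k : Fin 3} {q : ℂ × ℂ} {x : Fin 3 → ℂ} (h1 : x (fi k) = q.1) (h2 : x (se k) = q.2) :
    mq k q (x k) = x := by
  ext j
  fin_cases k <;> fin_cases j <;> simp_all [fi, se, mq]

namespace SFam

variable (F : SFam d D)

theorem analyticOnNhd_f (t : ℂ) : AnalyticOnNhd ℂ (F.f t) univ := by
  have h : ContDiff ℂ ⊤ (F.f t) := F.contDiff_f t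
  exact fun x _ => h.contDiffAt.analyticAt

/-- almost every line in the direction of an axis meets the surface in simple points only -/
theorem ae_simple {t : ℂ} (ht : t ∈ D) (k : Fin 3) : ∀ᵐ q : ℂ × ℂ, F.Simple k t q := by
  have h := H373.ae_fibre (Ω := univ) isOpen_univ (F.analyticOnNhd_f t)
    (H373.analyticOnNhd_proj (fi k)) (H373.analyticOnNhd_proj (se k)) F.s
  filter_upwards [h] with q hq z hz
  rcases hq (mq k q z) (mem_univ _) hz (mq_fi k q z) (mq_se k q z) with h1 | h1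
  · exfalso
    obtain ⟨i, hi⟩ := F.smooth t ht _ hz
    exact hi (h1 i)
  · intro h2
    apply h1
    have h3 := H373.norm_jac3_proj (f := F.f t) (fi_ne_se k) (fi_ne k) (se_ne k) (mq k q z)
    rw [h2, norm_zero] at h3
    exact norm_eq_zero.1 h3

/-- points of the surface which are critical for the projection along the last axis, on a line -/
def Bd (k : Fin 3) (t r : ℂ) : Set (ℂ × ℂ) :=
  {p | F.f t (mq k (r, p.1) p.2) = F.s ∧ pd k (F.f t) (mq k (r, p.1) p.2) ≠ 0 ∧
    pd 2 (F.f t) (mq k (r, p.1) p.2) = 0}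

theorem hasDerivAt_mq {k : Fin 3} (hk : k ≠ 2) (r : ℂ) {ζ : ℂ → ℂ} {c u : ℂ}
    (h : HasDerivAt ζ c u) :
    HasDerivAt (fun u => mq k (r, u) (ζ u)) (Pi.single 2 1 + c • Pi.single k 1) u := by
  refine hasDerivAt_pi.2 fun j => ?_
  fin_cases k
  · fin_cases j
    · simpa [mq] using h
    · simpa [mq] using hasDerivAt_const u r
    · simpa [mq] using hasDerivAt_id' u
  · fin_cases j
    · simpa [mq] using hasDerivAt_const u r
    · simpa [mq] using h
    · simpa [mq] using hasDerivAt_id' u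
  · exact absurd rfl hk

theorem isolated_Bd (t : ℂ) {k : Fin 3} (hk : k ≠ 2) (r : ℂ) {p : ℂ × ℂ} (hp : p ∈ F.Bd k t r) :
    {p} ∈ 𝓝[F.Bd k t r] p := by
  obtain ⟨u₀, z₀⟩ := p
  obtain ⟨h1, h2, h3⟩ := hp
  simp only at h1 h2 h3
  set Φ : ℂ × ℂ → ℂ := fun p => F.f t (mq k (r, p.1) p.2) with hΦ
  have hmq : ContDiff ℂ ⊤ fun p : ℂ × ℂ => mq k (r, p.1) p.2 :=
    (contDiff_mq k).comp ((contDiff_const.prodMk contDiff_fst).prodMk contDiff_snd)
  have hc : ContDiffAt ℂ ⊤ Φ (u₀, z₀) := ((F.contDiff_f t).comp hmq).contDiffAt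
  have hn : (⊤ : WithTop ℕ∞) ≠ 0 := by simp
  have hinv : (fderiv ℂ Φ (u₀, z₀) ∘L .inr ℂ ℂ ℂ).IsInvertible := by
    apply isInvertible_of_one
    have h4 : HasDerivAt (fun z => Φ (u₀, z)) (fderiv ℂ Φ (u₀, z₀) (0, 1)) z₀ := by
      have h5 : HasDerivAt (fun z : ℂ => ((u₀, z) : ℂ × ℂ)) (0, 1) z₀ :=
        (hasDerivAt_const z₀ u₀).prodMk (hasDerivAt_id z₀)
      exact (hc.differentiableAt hn).hasFDerivAt.comp_hasDerivAt z₀ h5
    have h6 : HasDerivAt (fun z => F.f t (Function.update (mq k (r, u₀) 0) k z))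
        (pd k (F.f t) (Function.update (mq k (r, u₀) 0) k z₀)) z₀ :=
      pd_eq_deriv (F.differentiable_f t) k (mq k (r, u₀) 0) z₀
    simp only [update_mq] at h6
    have h7 := h4.unique h6
    show fderiv ℂ Φ (u₀, z₀) (0, 1) ≠ 0
    rw [h7]
    exact h2
  set ζ := hc.implicitFunction hn hinv with hζ
  have hζan : AnalyticAt ℂ ζ u₀ := (hc.contDiffAt_implicitFunction hn hinv).analyticAt
  have hζ0 : ζ u₀ = z₀ := hc.implicitFunction_apply_self hn hinv
  have hiff : ∀ᶠ v in 𝓝 (u₀, z₀), Φ v = Φ (u₀, z₀) ↔ ζ v.1 = v.2 :=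
    hc.eventually_apply_eq_iff_implicitFunction hn hinv
  have hΦ0 : Φ (u₀, z₀) = F.s := h1
  have hzero : ∀ᶠ u in 𝓝 u₀, F.f t (mq k (r, u) (ζ u)) = F.s := by
    filter_upwards [hc.eventually_apply_implicitFunction hn hinv] with u hu
    have : Φ (u, ζ u) = F.s := by rw [hζ, hu]; exact h1
    exact this
  -- the derivative of the implicit function
  have hder : ∀ᶠ u in 𝓝 u₀, pd 2 (F.f t) (mq k (r, u) (ζ u)) +
      deriv ζ u * pd k (F.f t) (mq k (r, u) (ζ u)) = 0 := by
    filter_upwards [hzero.eventually_nhds, hζan.eventually_analyticAt] with u hu hu2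
    have h8 := hasDerivAt_mq hk r hu2.differentiableAt.hasDerivAt
    have h9 : HasDerivAt (fun u => F.f t (mq k (r, u) (ζ u)))
        (fderiv ℂ (F.f t) (mq k (r, u) (ζ u)) (Pi.single 2 1 + deriv ζ u • Pi.single k 1)) u :=
      (F.differentiable_f t _).hasFDerivAt.comp_hasDerivAt u h8
    have h10 : HasDerivAt (fun u => F.f t (mq k (r, u) (ζ u))) 0 u := by
      refine (hasDerivAt_const u F.s).congr_of_eventuallyEq ?_
      filter_upwards [hu] with v hv using hv
    have h11 := h9.unique h10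
    rw [map_add, map_smul, smul_eq_mul] at h11
    exact h11
  rcases hζan.deriv.eventually_eq_zero_or_eventually_ne_zero with hz | hz
  · -- the implicit function is constant: impossible
    exfalso
    have hconst : ∀ᶠ u in 𝓝 u₀, ζ u = z₀ := by
      obtain ⟨ε, hε, hball⟩ := Metric.eventually_nhds_iff_ball.1 (hz.and hζan.eventually_analyticAt)
      have hd : DifferentiableOn ℂ ζ (ball u₀ ε) := fun u hu =>
        (hball u hu).2.differentiableAt.differentiableWithinAt
      filter_upwards [ball_mem_nhds u₀ hε] with u hu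
      have h12 := (convex_ball u₀ ε).is_const_of_fderivWithin_eq_zero (𝕜 := ℂ) hd
        (fun v hv => by
          rw [fderivWithin_of_isOpen isOpen_ball hv]
          ext
          simpa using (hball v hv).1) hu (mem_ball_self hε)
      rw [h12, hζ0]
    have hroots : ∀ᶠ u in 𝓝 u₀, (F.P 2 t (mq k (r, 0) z₀)).eval u = 0 := by
      filter_upwards [hconst, hzero] with u hu1 hu2
      rw [eval_P]
      have h13 : Function.update (mq k (r, 0) z₀) 2 u = mq k (r, u) z₀ := by
        ext j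
        fin_cases k <;> fin_cases j <;> simp_all [mq]
      rw [h13, ← hu1, hu2, sub_self]
    have hfreq : ∃ᶠ u in 𝓝[≠] u₀, (F.P 2 t (mq k (r, 0) z₀)).eval u = 0 :=
      (hroots.filter_mono nhdsWithin_le_nhds).frequently
    have h14 : F.P 2 t (mq k (r, 0) z₀) = 0 := by
      apply Polynomial.eq_zero_of_infinite_isRoot
      intro hfin
      have h15 : ∀ᶠ u in 𝓝[≠] u₀, u ∉ {x | (F.P 2 t (mq k (r, 0) z₀)).IsRoot x} := by
        have := (hfin.subset (sdiff_subset (t := {u₀}))).isClosed.isOpen_compl.mem_nhds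
          (x := u₀) (by simp)
        filter_upwards [mem_nhdsWithin_of_mem_nhds this, self_mem_nhdsWithin] with u hu hu2 hu3
        exact hu ⟨hu3, hu2⟩
      obtain ⟨u, hu1, hu2⟩ := (hfreq.and_eventually h15).exists
      exact hu2 hu1
    exact F.P_ne_zero 2 t _ h14
  · rw [mem_nhdsWithin_iff_eventually]
    have e1 : ∀ᶠ v : ℂ × ℂ in 𝓝 (u₀, z₀), v.1 ≠ u₀ → deriv ζ v.1 ≠ 0 := by
      have := eventually_nhdsWithin_iff.1 hz
      exact continuousAt_fst.eventually (p := fun u => u ∈ ({u₀}ᶜ : Set ℂ) → deriv ζ u ≠ 0) this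
    have e2 : ∀ᶠ v : ℂ × ℂ in 𝓝 (u₀, z₀), pd 2 (F.f t) (mq k (r, v.1) (ζ v.1)) +
      deriv ζ v.1 * pd k (F.f t) (mq k (r, v.1) (ζ v.1)) = 0 :=
      continuousAt_fst.eventually (p := fun u => pd 2 (F.f t) (mq k (r, u) (ζ u)) +
        deriv ζ u * pd k (F.f t) (mq k (r, u) (ζ u)) = 0) hder
    filter_upwards [hiff, e1, e2] with v hv1 hv2 hv3 hvB
    obtain ⟨g1, g2, g3⟩ := hvB
    have hvz : ζ v.1 = v.2 := hv1.1 (by rw [hΦ0]; exact g1)
    rw [hvz, g3, zero_add] at hv3
    have hd0 : deriv ζ v.1 = 0 := by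
      rcases mul_eq_zero.1 hv3 with h | h
      · exact h
      · exact absurd h g2
    have hvu : v.1 = u₀ := by
      by_contra hne
      exact hv2 hne hd0
    rw [mem_singleton_iff]
    ext
    · exact hvu
    · show v.2 = z₀
      rw [← hvz, hvu, hζ0]

theorem countable_Bd (t : ℂ) {k : Fin 3} (hk : k ≠ 2) (r : ℂ) : (F.Bd k t r).Countable := by
  obtain ⟨T, hT, hTc, hcov⟩ := TopologicalSpace.countable_cover_nhdsWithin
    (f := fun p : ℂ × ℂ => {p}) (s := F.Bd k t r) fun p hp => F.isolated_Bd t hk r hp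
  refine hTc.mono fun p hp => ?_
  obtain ⟨q, hq, hpq⟩ := mem_iUnion₂.1 (hcov hp)
  rw [mem_singleton_iff] at hpq
  rw [hpq]
  exact hq

/-- points of the plane over which there is a root critical for the last projection -/
def Bq (k : Fin 3) (t : ℂ) : Set (ℂ × ℂ) :=
  {q | ∃ z, F.f t (mq k q z) = F.s ∧ pd k (F.f t) (mq k q z) ≠ 0 ∧ pd 2 (F.f t) (mq k q z) = 0}

theorem continuous_pd (k : Fin 3) (t : ℂ) : Continuous (pd k (F.f t)) := by
  have h : ContDiff ℂ 1 (F.f t) := (F.contDiff_f t).of_le le_top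
  exact (h.continuous_fderiv (by norm_num)).clm_apply continuous_const

theorem measurableSet_Bq (k : Fin 3) (t : ℂ) : MeasurableSet (F.Bq k t) := by
  have hc : Continuous fun p : (ℂ × ℂ) × ℂ => mq k p.1 p.2 := continuous_mq k
  set K : ℕ → Set ((ℂ × ℂ) × ℂ) := fun n => closedBall 0 n ∩
    ({p | F.f t (mq k p.1 p.2) = F.s} ∩ ({p | 1 / ((n : ℝ) + 1) ≤ ‖pd k (F.f t) (mq k p.1 p.2)‖} ∩
      {p | pd 2 (F.f t) (mq k p.1 p.2) = 0})) with hK
  have hKc : ∀ n, IsCompact (K n) := fun n => by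
    refine (isCompact_closedBall _ _).inter_right ?_
    refine (isClosed_eq ((F.differentiable_f t).continuous.comp hc) continuous_const).inter ?_
    refine (isClosed_le continuous_const ((F.continuous_pd k t).comp hc).norm).inter ?_
    exact isClosed_eq ((F.continuous_pd 2 t).comp hc) continuous_const
  have hB : F.Bq k t = ⋃ n, Prod.fst '' K n := by
    ext q
    constructor
    · rintro ⟨z, h1, h2, h3⟩
      obtain ⟨n₁, hn₁⟩ := exists_nat_ge ‖(q, z)‖
      obtain ⟨n₂, hn₂⟩ := exists_nat_one_div_lt (norm_pos_iff.2 h2)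
      refine mem_iUnion.2 ⟨max n₁ n₂, (q, z), ⟨?_, h1, ?_, h3⟩, rfl⟩
      · rw [mem_closedBall_zero_iff]
        exact hn₁.trans (by exact_mod_cast le_max_left n₁ n₂)
      · refine le_trans ?_ hn₂.le
        apply one_div_le_one_div_of_le (by positivity)
        have : (n₂ : ℝ) ≤ (max n₁ n₂ : ℕ) := by exact_mod_cast le_max_right n₁ n₂
        linarith
    · intro hq
      obtain ⟨n, ⟨q', z⟩, ⟨h0, h1, h2, h3⟩, rfl⟩ := mem_iUnion.1 hq
      refine ⟨z, h1, ?_, h3⟩
      intro h4
      have h5 : 1 / ((n : ℝ) + 1) ≤ ‖pd k (F.f t) (mq k q' z)‖ := h2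
      rw [h4, norm_zero] at h5
      have : (0 : ℝ) < 1 / ((n : ℝ) + 1) := by positivity
      linarith
  rw [hB]
  exact MeasurableSet.iUnion fun n => ((hKc n).image continuous_fst).isClosed.measurableSet

theorem volume_Bq (t : ℂ) {k : Fin 3} (hk : k ≠ 2) : volume (F.Bq k t) = 0 := by
  rw [Measure.volume_eq_prod, Measure.measure_prod_null (F.measurableSet_Bq k t)]
  refine Filter.Eventually.of_forall fun r => ?_
  have h1 : Prod.mk r ⁻¹' F.Bq k t ⊆ Prod.fst '' F.Bd k t r := by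
    rintro u ⟨z, h1, h2, h3⟩
    exact ⟨(u, z), ⟨h1, h2, h3⟩, rfl⟩
  have h2 : (Prod.mk r ⁻¹' F.Bq k t).Countable := ((F.countable_Bd t hk r).image _).mono h1
  exact h2.measure_zero volume

/-- for almost every point of the plane no simple root is critical for the last projection -/
theorem ae_pd_two {t : ℂ} (k : Fin 3) : ∀ᵐ q : ℂ × ℂ, ∀ z, F.f t (mq k q z) = F.s →
    pd k (F.f t) (mq k q z) ≠ 0 → pd 2 (F.f t) (mq k q z) ≠ 0 := by
  by_cases hk : k = 2
  · subst hk
    exact Filter.Eventually.of_forall fun q z _ h => h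
  · filter_upwards [measure_eq_zero_iff_ae_notMem.1 (F.volume_Bq t hk)] with q hq z h1 h2 h3
    exact hq ⟨z, h1, h2, h3⟩

end SFam

end Vale.Agent.P298.H412
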