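import Vale.Agent.P298.H412.Defs

/-!
P298, row S1-GEO-R6-B (helper412): the polynomials of a family `SFam` in one of the variables.
-/

namespace Vale.Agent.P298.H412

open Filter Topology Metric MeasureTheory Set Vale.Agent.P298 Vale.Agent.P298.H379
open scoped ENNReal NNReal

variable {d : ℕ} {D : Set ℂ}

/-- `f_t - s` as polynomial in the variable `x_i`, the other variables being those of `x` -/
noncomputable def SFam.P (F : SFam d D) (i : Fin 3) (t : ℂ) (x : Fin 3 → ℂ) : Polynomial ℂ :=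
  Polynomial.C (F.c i) * Polynomial.X ^ d +
    (Polynomial.C (∑ j ∈ Finset.univ.erase i, F.c j * x j ^ d - F.s) +
      ∑ α : Mon d (d - 1), Polynomial.C (F.a t α * ∏ j ∈ Finset.univ.erase i, x j ^ (α.1 j : ℕ)) *
        Polynomial.X ^ (α.1 i : ℕ))

namespace SFam

variable (F : SFam d D)

include F in
theorem d_pos : 0 < d := lt_of_lt_of_le (by norm_num) F.hd

theorem prod_update (i : Fin 3) (x : Fin 3 → ℂ) (z : ℂ) (n : Fin 3 → ℕ) :
    ∏ j, Function.update x i z j ^ n j = z ^ n i * ∏ j ∈ Finset.univ.erase i, x j ^ n j := by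
  rw [← Finset.mul_prod_erase Finset.univ _ (Finset.mem_univ i), Function.update_self]
  congr 1
  refine Finset.prod_congr rfl fun j hj => ?_
  rw [Function.update_of_ne (Finset.ne_of_mem_erase hj)]

theorem f_update (i : Fin 3) (t : ℂ) (x : Fin 3 → ℂ) (z : ℂ) :
    F.f t (Function.update x i z) = F.c i * z ^ d + (∑ j ∈ Finset.univ.erase i, F.c j * x j ^ d +
      ∑ α : Mon d (d - 1), (F.a t α * ∏ j ∈ Finset.univ.erase i, x j ^ (α.1 j : ℕ)) *
        z ^ (α.1 i : ℕ)) := by
  unfold SFam.f ev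
  rw [← Finset.add_sum_erase Finset.univ _ (Finset.mem_univ i), Function.update_self]
  have h1 : ∑ j ∈ Finset.univ.erase i, F.c j * Function.update x i z j ^ d =
      ∑ j ∈ Finset.univ.erase i, F.c j * x j ^ d :=
    Finset.sum_congr rfl fun j hj => by rw [Function.update_of_ne (Finset.ne_of_mem_erase hj)]
  have h2 : ∀ α : Mon d (d - 1), ∏ j, Function.update x i z j ^ (α.1 j : ℕ) =
      z ^ (α.1 i : ℕ) * ∏ j ∈ Finset.univ.erase i, x j ^ (α.1 j : ℕ) := fun α =>
    prod_update i x z fun j => (α.1 j : ℕ)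
  rw [h1]
  simp only [h2]
  rw [add_assoc]
  congr 2
  refine Finset.sum_congr rfl fun α _ => ?_
  ring

theorem eval_P (i : Fin 3) (t : ℂ) (x : Fin 3 → ℂ) (z : ℂ) :
    (F.P i t x).eval z = F.f t (Function.update x i z) - F.s := by
  rw [f_update]
  unfold SFam.P
  simp only [Polynomial.eval_add, Polynomial.eval_mul, Polynomial.eval_C, Polynomial.eval_pow,
    Polynomial.eval_X, Polynomial.eval_finsetSum]
  ring

theorem P_update (i : Fin 3) (t : ℂ) (x : Fin 3 → ℂ) (z : ℂ) :
    F.P i t (Function.update x i z) = F.P i t x := by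
  unfold SFam.P
  have h1 : ∑ j ∈ Finset.univ.erase i, F.c j * Function.update x i z j ^ d =
      ∑ j ∈ Finset.univ.erase i, F.c j * x j ^ d :=
    Finset.sum_congr rfl fun j hj => by rw [Function.update_of_ne (Finset.ne_of_mem_erase hj)]
  have h2 : ∀ α : Mon d (d - 1), ∏ j ∈ Finset.univ.erase i, Function.update x i z j ^ (α.1 j : ℕ) =
      ∏ j ∈ Finset.univ.erase i, x j ^ (α.1 j : ℕ) := fun α =>
    Finset.prod_congr rfl fun j hj => by rw [Function.update_of_ne (Finset.ne_of_mem_erase hj)]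
  rw [h1]
  simp only [h2]

theorem mon_lt (α : Mon d (d - 1)) (i : Fin 3) : (α.1 i : ℕ) < d ∨ d = 0 := by
  have h := α.2.1
  rcases Nat.eq_zero_or_pos d with h0 | h0
  · exact Or.inr h0
  · left
    have h1 : (α.1 i : ℕ) ≤ (α.1 0 : ℕ) + α.1 1 + α.1 2 := by
      fin_cases i <;> simp <;> omega
    omega

theorem degree_rest_lt (i : Fin 3) (t : ℂ) (x : Fin 3 → ℂ) :
    (Polynomial.C (∑ j ∈ Finset.univ.erase i, F.c j * x j ^ d - F.s) +
      ∑ α : Mon d (d - 1), Polynomial.C (F.a t α * ∏ j ∈ Finset.univ.erase i, x j ^ (α.1 j : ℕ)) *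
        Polynomial.X ^ (α.1 i : ℕ)).degree < d := by
  have hd := F.d_pos
  refine lt_of_le_of_lt (Polynomial.degree_add_le _ _) (max_lt ?_ ?_)
  · exact lt_of_le_of_lt Polynomial.degree_C_le (by exact_mod_cast hd)
  · refine lt_of_le_of_lt (Polynomial.degree_sum_le _ _) ?_
    rw [Finset.sup_lt_iff (by exact_mod_cast WithBot.bot_lt_coe d)]
    intro α _
    refine lt_of_le_of_lt (Polynomial.degree_C_mul_X_pow_le _ _) ?_
    rcases mon_lt α i with h | h
    · exact_mod_cast h
    · omega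

theorem degree_P (i : Fin 3) (t : ℂ) (x : Fin 3 → ℂ) : (F.P i t x).degree = d := by
  unfold SFam.P
  rw [Polynomial.degree_add_eq_left_of_degree_lt]
  · exact Polynomial.degree_C_mul_X_pow d (F.hc i)
  · rw [Polynomial.degree_C_mul_X_pow d (F.hc i)]
    exact F.degree_rest_lt i t x

theorem natDegree_P (i : Fin 3) (t : ℂ) (x : Fin 3 → ℂ) : (F.P i t x).natDegree = d :=
  Polynomial.natDegree_eq_of_degree_eq_some (F.degree_P i t x)

theorem P_ne_zero (i : Fin 3) (t : ℂ) (x : Fin 3 → ℂ) : F.P i t x ≠ 0 := by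
  intro h
  have := F.degree_P i t x
  rw [h, Polynomial.degree_zero] at this
  exact absurd this (by simp)

/-- joint function -/
theorem contDiff_f (t : ℂ) : ContDiff ℂ ⊤ (F.f t) := by
  unfold SFam.f ev
  fun_prop

theorem differentiable_f (t : ℂ) : Differentiable ℂ (F.f t) := by
  unfold SFam.f ev
  fun_prop

theorem pd_eq_deriv {g : (Fin 3 → ℂ) → ℂ} (hg : Differentiable ℂ g) (i : Fin 3) (x : Fin 3 → ℂ)
    (z : ℂ) : HasDerivAt (fun z => g (Function.update x i z)) (pd i g (Function.update x i z)) z := by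
  have h1 : HasDerivAt (fun z : ℂ => Function.update x i z) (Pi.single i (1 : ℂ)) z := by
    have := hasDerivAt_update (x := x) (i := i) z
    exact this
  exact (hg _).hasFDerivAt.comp_hasDerivAt z h1

theorem eval_derivative_P (i : Fin 3) (t : ℂ) (x : Fin 3 → ℂ) (z : ℂ) :
    (F.P i t x).derivative.eval z = pd i (F.f t) (Function.update x i z) := by
  have h1 := (F.P i t x).hasDerivAt z
  have h2 := pd_eq_deriv (F.differentiable_f t) i x z
  have h3 : (fun z => (F.P i t x).eval z) = fun z => F.f t (Function.update x i z) - F.s :=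
    funext fun z => F.eval_P i t x z
  rw [h3] at h1
  exact h1.unique (h2.sub_const _)

theorem eval_P_self (i : Fin 3) (t : ℂ) (x : Fin 3 → ℂ) :
    (F.P i t x).eval (x i) = F.f t x - F.s := by
  rw [eval_P, Function.update_eq_self]

theorem pd_f (i : Fin 3) (t : ℂ) (x : Fin 3 → ℂ) :
    pd i (F.f t) x = F.c i * (d * x i ^ (d - 1)) +
      ∑ α : Mon d (d - 1), (F.a t α * ∏ j ∈ Finset.univ.erase i, x j ^ (α.1 j : ℕ)) *
        ((α.1 i : ℕ) * x i ^ ((α.1 i : ℕ) - 1)) := by
  have h := F.eval_derivative_P i t x (x i)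
  rw [Function.update_eq_self] at h
  rw [← h]
  unfold SFam.P
  simp only [Polynomial.derivative_add, Polynomial.derivative_C_mul_X_pow, Polynomial.derivative_C,
    zero_add, Polynomial.derivative_sum, Polynomial.eval_add, Polynomial.eval_finsetSum,
    Polynomial.eval_mul, Polynomial.eval_C, Polynomial.eval_pow, Polynomial.eval_X]
  rw [mul_assoc]
  congr 1
  refine Finset.sum_congr rfl fun α _ => ?_
  ring

theorem continuousOn_f : ContinuousOn (fun p : ℂ × (Fin 3 → ℂ) => F.f p.1 p.2) (D ×ˢ univ) := by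
  have ha : ContinuousOn (fun p : ℂ × (Fin 3 → ℂ) => F.a p.1) (D ×ˢ univ) :=
    F.holo.continuousOn.comp continuousOn_fst fun p hp => hp.1
  have ha' : ∀ α, ContinuousOn (fun p : ℂ × (Fin 3 → ℂ) => F.a p.1 α) (D ×ˢ univ) := fun α =>
    (continuous_apply α).comp_continuousOn ha
  unfold SFam.f ev
  refine ContinuousOn.add (by fun_prop) (continuousOn_finsetSum _ fun α _ => ?_)
  exact (ha' α).mul (by fun_prop)

theorem continuousOn_pd (i : Fin 3) :
    ContinuousOn (fun p : ℂ × (Fin 3 → ℂ) => pd i (F.f p.1) p.2) (D ×ˢ univ) := by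
  have ha : ContinuousOn (fun p : ℂ × (Fin 3 → ℂ) => F.a p.1) (D ×ˢ univ) :=
    F.holo.continuousOn.comp continuousOn_fst fun p hp => hp.1
  have ha' : ∀ α, ContinuousOn (fun p : ℂ × (Fin 3 → ℂ) => F.a p.1 α) (D ×ˢ univ) := fun α =>
    (continuous_apply α).comp_continuousOn ha
  simp only [pd_f]
  refine ContinuousOn.add (by fun_prop) (continuousOn_finsetSum _ fun α _ => ?_)
  exact ((ha' α).mul (by fun_prop)).mul (by fun_prop)

theorem differentiableOn_f :
    DifferentiableOn ℂ (fun p : ℂ × (Fin 3 → ℂ) => F.f p.1 p.2) (D ×ˢ univ) := by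
  have ha : DifferentiableOn ℂ (fun p : ℂ × (Fin 3 → ℂ) => F.a p.1) (D ×ˢ univ) :=
    F.holo.comp differentiableOn_fst fun p hp => hp.1
  have ha' : ∀ α, DifferentiableOn ℂ (fun p : ℂ × (Fin 3 → ℂ) => F.a p.1 α) (D ×ˢ univ) := fun α =>
    differentiableOn_pi.1 ha α
  unfold SFam.f ev
  refine DifferentiableOn.add (by fun_prop) (DifferentiableOn.fun_sum fun α _ => ?_)
  refine (ha' α).mul ?_
  have h : ContDiff ℂ 1 (fun p : ℂ × (Fin 3 → ℂ) => ∏ i, p.2 i ^ (α.1 i : ℕ)) := by fun_prop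
  exact (h.differentiable (by norm_num)).differentiableOn

end SFam

end Vale.Agent.P298.H412
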