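import Vale.Agent.P298.H412.Poly

/-!
P298, row S1-GEO-R6-B (helper412): sums over the roots in the direction of a coordinate axis
depend continuously on the parameters at every point where all roots are simple.
-/

namespace Vale.Agent.P298.H412

open Filter Topology Metric MeasureTheory Set Vale.Agent.P298 Vale.Agent.P298.H379
open scoped ENNReal NNReal

variable {d : ℕ} {D : Set ℂ}

/-- the point with `i`-th coordinate `z`, the other two coordinates being `q` -/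
def mq (i : Fin 3) (q : ℂ × ℂ) (z : ℂ) : Fin 3 → ℂ :=
  match i with
  | 0 => ![z, q.1, q.2]
  | 1 => ![q.1, z, q.2]
  | 2 => ![q.1, q.2, z]

theorem mq_zero (q : ℂ × ℂ) (z : ℂ) : mq 0 q z = ![z, q.1, q.2] := rfl

theorem mq_one (q : ℂ × ℂ) (z : ℂ) : mq 1 q z = ![q.1, z, q.2] := rfl

theorem mq_two (q : ℂ × ℂ) (z : ℂ) : mq 2 q z = ![q.1, q.2, z] := rfl

theorem update_mq (i : Fin 3) (q : ℂ × ℂ) (z w : ℂ) :
    Function.update (mq i q z) i w = mq i q w := by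
  ext j
  fin_cases i <;> fin_cases j <;> simp [mq]

theorem mq_self (i : Fin 3) (q : ℂ × ℂ) (z : ℂ) : mq i q z i = z := by
  fin_cases i <;> simp [mq]

theorem contDiff_mq (i : Fin 3) {n : WithTop ℕ∞} :
    ContDiff ℂ n fun p : (ℂ × ℂ) × ℂ => mq i p.1 p.2 := by
  refine contDiff_pi.2 fun j => ?_
  fin_cases i <;> fin_cases j <;> simp [mq] <;> fun_prop

theorem continuous_mq (i : Fin 3) : Continuous fun p : (ℂ × ℂ) × ℂ => mq i p.1 p.2 :=
  (contDiff_mq i (n := 0)).continuous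

theorem differentiable_mq (i : Fin 3) :
    Differentiable ℂ fun p : (ℂ × ℂ) × ℂ => mq i p.1 p.2 :=
  (contDiff_mq i (n := 1)).differentiable (by norm_num)

theorem norm_le_norm_mq (i : Fin 3) (q : ℂ × ℂ) (z : ℂ) : ‖q‖ ≤ ‖mq i q z‖ := by
  have key : ∀ j : Fin 3, ‖mq i q z j‖ ≤ ‖mq i q z‖ := fun j => norm_le_pi_norm _ j
  refine max_le ?_ ?_
  · fin_cases i
    · exact key 1
    · exact key 0
    · exact key 0
  · fin_cases i
    · exact key 2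
    · exact key 2
    · exact key 1

namespace SFam

variable (F : SFam d D)

/-- nondegenerate roots in the direction of the `i`-th axis -/
def Rt (i : Fin 3) (t : ℂ) (q : ℂ × ℂ) : Set ℂ :=
  {z | F.f t (mq i q z) = F.s ∧ pd i (F.f t) (mq i q z) ≠ 0}

/-- sum over the nondegenerate roots in the direction of the `i`-th axis -/
noncomputable def rs (i : Fin 3) (t : ℂ) (ψ : (Fin 3 → ℂ) → ℝ≥0∞) (q : ℂ × ℂ) : ℝ≥0∞ :=
  ∑' z : F.Rt i t q, ψ (mq i q z)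

/-- all roots in the direction of the `i`-th axis are simple -/
def Simple (i : Fin 3) (t : ℂ) (q : ℂ × ℂ) : Prop :=
  ∀ z, F.f t (mq i q z) = F.s → pd i (F.f t) (mq i q z) ≠ 0

/-- the polynomial in the direction of the `i`-th axis -/
noncomputable def Pq (i : Fin 3) (t : ℂ) (q : ℂ × ℂ) : Polynomial ℂ := F.P i t (mq i q 0)

theorem eval_Pq (i : Fin 3) (t : ℂ) (q : ℂ × ℂ) (z : ℂ) :
    (F.Pq i t q).eval z = F.f t (mq i q z) - F.s := by
  unfold Pq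
  rw [eval_P, update_mq]

theorem eval_derivative_Pq (i : Fin 3) (t : ℂ) (q : ℂ × ℂ) (z : ℂ) :
    (F.Pq i t q).derivative.eval z = pd i (F.f t) (mq i q z) := by
  unfold Pq
  rw [eval_derivative_P, update_mq]

theorem mem_roots_Pq (i : Fin 3) (t : ℂ) (q : ℂ × ℂ) (z : ℂ) :
    z ∈ (F.Pq i t q).roots.toFinset ↔ F.f t (mq i q z) = F.s := by
  have h0 : F.Pq i t q ≠ 0 := F.P_ne_zero i t _
  rw [Multiset.mem_toFinset, Polynomial.mem_roots h0, Polynomial.IsRoot.def,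
    eval_Pq, sub_eq_zero]

theorem card_roots_le (i : Fin 3) (t : ℂ) (q : ℂ × ℂ) :
    (F.Pq i t q).roots.toFinset.card ≤ d := by
  refine (Multiset.toFinset_card_le _).trans ?_
  have := Polynomial.card_roots' (F.Pq i t q)
  rwa [show (F.Pq i t q).natDegree = d from F.natDegree_P i t _] at this

theorem card_roots_eq (i : Fin 3) (t : ℂ) (q : ℂ × ℂ) (h : F.Simple i t q) :
    (F.Pq i t q).roots.toFinset.card = d := by
  have h0 : F.Pq i t q ≠ 0 := F.P_ne_zero i t _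
  have h1 : (F.Pq i t q).roots.Nodup := by
    refine Multiset.nodup_iff_count_le_one.2 fun z => ?_
    by_cases hz : z ∈ (F.Pq i t q).roots
    · rw [Polynomial.count_roots]
      by_contra hcon
      push Not at hcon
      have h2 := (Polynomial.one_lt_rootMultiplicity_iff_isRoot h0).1 hcon
      have h3 : F.f t (mq i q z) = F.s := by
        have := h2.1
        rwa [Polynomial.IsRoot.def, eval_Pq, sub_eq_zero] at this
      have h4 := h2.2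
      rw [Polynomial.IsRoot.def, eval_derivative_Pq] at h4
      exact h z h3 h4
    · rw [Multiset.count_eq_zero_of_notMem hz]
      exact zero_le_one
  rw [Multiset.toFinset_card_of_nodup h1]
  rw [IsAlgClosed.card_roots_eq_natDegree]
  exact F.natDegree_P i t _

theorem contDiffAt_f {t : ℂ} (ht : t ∈ D) (x : Fin 3 → ℂ) :
    ContDiffAt ℂ 1 (fun p : ℂ × (Fin 3 → ℂ) => F.f p.1 p.2) (t, x) := by
  have ha : ∀ α, AnalyticAt ℂ (fun t => F.a t α) t := fun α =>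
    (differentiableOn_pi.1 F.holo α).analyticAt (F.hD.mem_nhds ht)
  have ha' : ∀ α, ContDiffAt ℂ 1 (fun p : ℂ × (Fin 3 → ℂ) => F.a p.1 α) (t, x) := fun α =>
    ((ha α).contDiffAt (n := 1)).comp (t, x) contDiffAt_fst
  unfold SFam.f ev
  refine ContDiffAt.add ?_ (ContDiffAt.sum fun α _ => ?_)
  · have h : ContDiff ℂ 1 (fun p : ℂ × (Fin 3 → ℂ) => ∑ i, F.c i * p.2 i ^ d) := by fun_prop
    exact h.contDiffAt
  · refine (ha' α).mul ?_
    have h : ContDiff ℂ 1 (fun p : ℂ × (Fin 3 → ℂ) => ∏ i, p.2 i ^ (α.1 i : ℕ)) := by fun_prop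
    exact h.contDiffAt

theorem isInvertible_of_one {L : ℂ →L[ℂ] ℂ} (h : L 1 ≠ 0) : L.IsInvertible := by
  refine ⟨ContinuousLinearEquiv.smulLeft (Units.mk0 (L 1) h), ?_⟩
  ext
  simp

/-- a simple root moves continuously -/
theorem exists_root (i : Fin 3) {t₀ : ℂ} (ht₀ : t₀ ∈ D) {q₀ : ℂ × ℂ} {z₀ : ℂ}
    (h1 : F.f t₀ (mq i q₀ z₀) = F.s) (h2 : pd i (F.f t₀) (mq i q₀ z₀) ≠ 0) :
    ∃ ζ : ℂ × (ℂ × ℂ) → ℂ, ContinuousAt ζ (t₀, q₀) ∧ ζ (t₀, q₀) = z₀ ∧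
      ∀ᶠ p in 𝓝 (t₀, q₀), F.f p.1 (mq i p.2 (ζ p)) = F.s := by
  set Φ : (ℂ × (ℂ × ℂ)) × ℂ → ℂ := fun p => F.f p.1.1 (mq i p.1.2 p.2) with hΦ
  have hmq : ContDiff ℂ 1 fun p : (ℂ × (ℂ × ℂ)) × ℂ => mq i p.1.2 p.2 :=
    (contDiff_mq i).comp ((contDiff_snd.comp contDiff_fst).prodMk contDiff_snd)
  have hc : ContDiffAt ℂ 1 Φ ((t₀, q₀), z₀) := by
    have h3 : ContDiffAt ℂ 1 (fun p : (ℂ × (ℂ × ℂ)) × ℂ => (p.1.1, mq i p.1.2 p.2))
        ((t₀, q₀), z₀) :=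
      ((contDiff_fst.comp contDiff_fst).prodMk hmq).contDiffAt
    exact (F.contDiffAt_f ht₀ (mq i q₀ z₀)).comp ((t₀, q₀), z₀) h3
  have hinv : (fderiv ℂ Φ ((t₀, q₀), z₀) ∘L .inr ℂ (ℂ × (ℂ × ℂ)) ℂ).IsInvertible := by
    apply isInvertible_of_one
    have h4 : HasDerivAt (fun z => Φ ((t₀, q₀), z)) (fderiv ℂ Φ ((t₀, q₀), z₀) (0, 1)) z₀ := by
      have h5 : HasDerivAt (fun z : ℂ => (((t₀, q₀), z) : (ℂ × (ℂ × ℂ)) × ℂ)) (0, 1) z₀ :=
        (hasDerivAt_const z₀ (t₀, q₀)).prodMk (hasDerivAt_id z₀)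
      exact (hc.differentiableAt (by norm_num)).hasFDerivAt.comp_hasDerivAt z₀ h5
    have h6 : HasDerivAt (fun z => F.f t₀ (Function.update (mq i q₀ 0) i z))
        (pd i (F.f t₀) (Function.update (mq i q₀ 0) i z₀)) z₀ :=
      pd_eq_deriv (F.differentiable_f t₀) i (mq i q₀ 0) z₀
    simp only [update_mq] at h6
    have h7 := h4.unique h6
    show fderiv ℂ Φ ((t₀, q₀), z₀) (0, 1) ≠ 0
    rw [h7]
    exact h2
  have hn : (1 : WithTop ℕ∞) ≠ 0 := by norm_num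
  refine ⟨hc.implicitFunction hn hinv, ?_, ?_, ?_⟩
  · exact (hc.hasStrictFDerivAt_implicitFunction hn hinv).continuousAt
  · exact hc.implicitFunction_apply_self hn hinv
  · have h8 := hc.eventually_apply_implicitFunction hn hinv
    filter_upwards [h8] with p hp
    have : Φ (p, hc.implicitFunction hn hinv p) = F.s := by rw [hp]; exact h1
    exact this

theorem exists_roots (i : Fin 3) {t₀ : ℂ} (ht₀ : t₀ ∈ D) {q₀ : ℂ × ℂ} (h : F.Simple i t₀ q₀) :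
    ∃ ζ : ℂ → ℂ × (ℂ × ℂ) → ℂ,
      (∀ z ∈ (F.Pq i t₀ q₀).roots.toFinset, ContinuousAt (ζ z) (t₀, q₀) ∧ ζ z (t₀, q₀) = z) ∧
      ∀ᶠ p in 𝓝 (t₀, q₀), InjOn (fun z => ζ z p) ((F.Pq i t₀ q₀).roots.toFinset : Set ℂ) ∧
        F.Rt i p.1 p.2 = (fun z => ζ z p) '' ((F.Pq i t₀ q₀).roots.toFinset : Set ℂ) := by
  classical
  set Z := (F.Pq i t₀ q₀).roots.toFinset with hZ
  have hmem : ∀ z ∈ Z, F.f t₀ (mq i q₀ z) = F.s := fun z hz => (F.mem_roots_Pq i t₀ q₀ z).1 hz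
  choose! ζ hζ1 hζ2 hζ3 using fun z (hz : z ∈ Z) =>
    F.exists_root i ht₀ (hmem z hz) (h z (hmem z hz))
  refine ⟨ζ, fun z hz => ⟨hζ1 z hz, hζ2 z hz⟩, ?_⟩
  have e1 : ∀ᶠ p in 𝓝 (t₀, q₀), ∀ z ∈ Z, F.f p.1 (mq i p.2 (ζ z p)) = F.s :=
    (Finset.eventually_all Z).2 hζ3
  have e2 : ∀ᶠ p in 𝓝 (t₀, q₀), ∀ z ∈ Z, ∀ w ∈ Z, z ≠ w → ζ z p ≠ ζ w p := by
    refine (Finset.eventually_all Z).2 fun z hz => (Finset.eventually_all Z).2 fun w hw => ?_
    by_cases hzw : z = w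
    · exact Filter.Eventually.of_forall fun p hp => absurd hzw hp
    · have h1 : ζ z (t₀, q₀) ≠ ζ w (t₀, q₀) := by rw [hζ2 z hz, hζ2 w hw]; exact hzw
      have h2 : ContinuousAt (fun p => ζ z p - ζ w p) (t₀, q₀) := (hζ1 z hz).sub (hζ1 w hw)
      filter_upwards [h2.eventually_ne (sub_ne_zero.2 h1)] with p hp _
      exact sub_ne_zero.1 hp
  have e3 : ∀ᶠ p in 𝓝 (t₀, q₀), ∀ z ∈ Z, pd i (F.f p.1) (mq i p.2 (ζ z p)) ≠ 0 := by
    refine (Finset.eventually_all Z).2 fun z hz => ?_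
    have h1 : ContinuousAt (fun p : ℂ × (ℂ × ℂ) => (p.1, mq i p.2 (ζ z p))) (t₀, q₀) := by
      refine continuousAt_fst.prodMk ?_
      exact (continuous_mq i).continuousAt.comp (f := fun p : ℂ × (ℂ × ℂ) => (p.2, ζ z p))
        (continuousAt_snd.prodMk (hζ1 z hz))
    have h2 : ContinuousAt (fun p : ℂ × (Fin 3 → ℂ) => pd i (F.f p.1) p.2)
        (t₀, mq i q₀ (ζ z (t₀, q₀))) :=
      (F.continuousOn_pd i).continuousAt ((F.hD.prod isOpen_univ).mem_nhds ⟨ht₀, mem_univ _⟩)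
    have h3 := ContinuousAt.comp (f := fun p : ℂ × (ℂ × ℂ) => (p.1, mq i p.2 (ζ z p)))
      (x := (t₀, q₀)) h2 h1
    refine h3.eventually_ne ?_
    show pd i (F.f t₀) (mq i q₀ (ζ z (t₀, q₀))) ≠ 0
    rw [hζ2 z hz]
    exact h z (hmem z hz)
  filter_upwards [e1, e2, e3] with p hp1 hp2 hp3
  have hinj : InjOn (fun z => ζ z p) (Z : Set ℂ) := by
    intro z hz w hw hzw
    by_contra hne
    exact hp2 z hz w hw hne hzw
  refine ⟨hinj, ?_⟩
  have hsub : Z.image (fun z => ζ z p) ⊆ (F.Pq i p.1 p.2).roots.toFinset := by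
    intro w hw
    obtain ⟨z, hz, rfl⟩ := Finset.mem_image.1 hw
    exact (F.mem_roots_Pq i p.1 p.2 _).2 (hp1 z hz)
  have hcard : (F.Pq i p.1 p.2).roots.toFinset.card ≤ (Z.image (fun z => ζ z p)).card := by
    rw [Finset.card_image_of_injOn hinj, hZ, F.card_roots_eq i t₀ q₀ h]
    exact F.card_roots_le i p.1 p.2
  have heq := Finset.eq_of_subset_of_card_le hsub hcard
  apply Subset.antisymm
  · rintro w ⟨hw1, -⟩
    have hw2 := (F.mem_roots_Pq i p.1 p.2 w).2 hw1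
    rw [← heq] at hw2
    obtain ⟨z, hz, rfl⟩ := Finset.mem_image.1 hw2
    exact ⟨z, hz, rfl⟩
  · rintro _ ⟨z, hz, rfl⟩
    exact ⟨hp1 z hz, hp3 z hz⟩

theorem rs_eq_sum {i : Fin 3} {t : ℂ} {q : ℂ × ℂ} {ψ : (Fin 3 → ℂ) → ℝ≥0∞} {Z : Finset ℂ}
    {g : ℂ → ℂ} (hg : InjOn g (Z : Set ℂ)) (h : F.Rt i t q = g '' (Z : Set ℂ)) :
    F.rs i t ψ q = ∑ z ∈ Z, ψ (mq i q (g z)) := by
  classical
  unfold SFam.rs
  rw [h, ← Finset.coe_image]
  rw [Finset.tsum_subtype' (Z.image g) fun z => ψ (mq i q z), Finset.sum_image hg]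

/-- continuity of the root sums where all roots are simple -/
theorem continuousAt_rs {P : Type*} [TopologicalSpace P] {τ : P → ℂ} {y₀ : P}
    (hτ : ContinuousAt τ y₀) (hy : τ y₀ ∈ D) {ψ : P → (Fin 3 → ℂ) → ℝ≥0∞}
    (hψ : ∀ x, F.f (τ y₀) x = F.s → ContinuousAt (fun p : P × (Fin 3 → ℂ) => ψ p.1 p.2) (y₀, x))
    {i : Fin 3} {q₀ : ℂ × ℂ} (h : F.Simple i (τ y₀) q₀) :
    ContinuousAt (fun p : P × (ℂ × ℂ) => F.rs i (τ p.1) (ψ p.1) p.2) (y₀, q₀) := by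
  obtain ⟨ζ, hζ, hev⟩ := F.exists_roots i hy h
  set Z := (F.Pq i (τ y₀) q₀).roots.toFinset with hZ
  have hτ' : ContinuousAt (fun p : P × (ℂ × ℂ) => (τ p.1, p.2)) (y₀, q₀) :=
    (ContinuousAt.comp (f := fun p : P × (ℂ × ℂ) => p.1) (x := (y₀, q₀)) hτ
      continuousAt_fst).prodMk continuousAt_snd
  have hev' := hτ'.eventually hev
  have hcong : (fun p : P × (ℂ × ℂ) => F.rs i (τ p.1) (ψ p.1) p.2) =ᶠ[𝓝 (y₀, q₀)]
      fun p => ∑ z ∈ Z, ψ p.1 (mq i p.2 (ζ z (τ p.1, p.2))) := by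
    filter_upwards [hev'] with p hp
    exact F.rs_eq_sum hp.1 hp.2
  refine ContinuousAt.congr ?_ hcong.symm
  refine tendsto_finsetSum Z fun z hz => ?_
  have hz1 : F.f (τ y₀) (mq i q₀ z) = F.s := (F.mem_roots_Pq i (τ y₀) q₀ z).1 hz
  obtain ⟨h1, h2⟩ := hζ z hz
  have h3 : ContinuousAt (fun p : P × (ℂ × ℂ) => ζ z (τ p.1, p.2)) (y₀, q₀) :=
    ContinuousAt.comp (f := fun p : P × (ℂ × ℂ) => (τ p.1, p.2)) (x := (y₀, q₀)) h1 hτ'
  have h4 : ContinuousAt (fun p : P × (ℂ × ℂ) => (p.1, mq i p.2 (ζ z (τ p.1, p.2)))) (y₀, q₀) := by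
    refine continuousAt_fst.prodMk ?_
    exact (continuous_mq i).continuousAt.comp
      (f := fun p : P × (ℂ × ℂ) => (p.2, ζ z (τ p.1, p.2))) (continuousAt_snd.prodMk h3)
  have h5 : ContinuousAt (fun p : P × (Fin 3 → ℂ) => ψ p.1 p.2)
      (y₀, mq i q₀ (ζ z (τ y₀, q₀))) := by
    refine hψ _ ?_
    rw [h2]; exact hz1
  exact ContinuousAt.comp (f := fun p : P × (ℂ × ℂ) => (p.1, mq i p.2 (ζ z (τ p.1, p.2))))
    (x := (y₀, q₀)) h5 h4

/-- bound of the root sums -/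
theorem rs_le (i : Fin 3) (t : ℂ) (ψ : (Fin 3 → ℂ) → ℝ≥0∞) (q : ℂ × ℂ) {B : ℝ≥0∞}
    (hB : ∀ z, F.f t (mq i q z) = F.s → ψ (mq i q z) ≤ B) : F.rs i t ψ q ≤ d * B := by
  classical
  set Z := (F.Pq i t q).roots.toFinset with hZ
  have hsub : F.Rt i t q ⊆ (Z : Set ℂ) := fun z hz => (F.mem_roots_Pq i t q z).2 hz.1
  calc F.rs i t ψ q = ∑' z : F.Rt i t q, ψ (mq i q z) := rfl
    _ ≤ ∑' z : (Z : Set ℂ), ψ (mq i q z) := by
        exact ENNReal.tsum_mono_subtype (fun z => ψ (mq i q z)) hsub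
    _ = ∑ z ∈ Z, ψ (mq i q z) := Finset.tsum_subtype' Z fun z => ψ (mq i q z)
    _ ≤ ∑ z ∈ Z, B := Finset.sum_le_sum fun z hz => hB z ((F.mem_roots_Pq i t q z).1 hz)
    _ = Z.card * B := by rw [Finset.sum_const, nsmul_eq_mul]
    _ ≤ d * B := by
        gcongr
        exact_mod_cast F.card_roots_le i t q

end SFam

end Vale.Agent.P298.H412
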